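import Vale.Agent.P025.H16.Fermat

/-! # Nondegeneracy of the tame symbol -/

open Polynomial P025H641

namespace P025H461

universe u v

section geom

variable {k : Type u} {Ω : Type v} [Field k] [Field Ω] [Algebra k Ω] {q : ℕ} [Fact q.Prime]

/-- the conjugates of a root -/
lemma exists_conj [IsGalois k Ω] {ζ : k} (hζ : IsPrimitiveRoot ζ q) (a : k) (ha0 : a ≠ 0)
    (ha : ¬ ∃ c : k, a = c ^ q) (θ : Ω) (hθ : θ ^ q = algebraMap k Ω a) (i : ℕ) :
    ∃ σ : Gal(Ω/k), σ θ = algebraMap k Ω (ζ ^ i) * θ := by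
  have hqq : q.Prime := Fact.out
  have hZ : IsPrimitiveRoot (algebraMap k Ω ζ) q :=
    hζ.map_of_injective (algebraMap k Ω).injective
  have hθ0 : θ ≠ 0 := by
    rintro rfl
    rw [zero_pow hqq.ne_zero] at hθ
    exact ha0 ((map_eq_zero _).1 hθ.symm)
  obtain ⟨σ, hσ⟩ : ∃ σ : Gal(Ω/k), σ θ ≠ θ := by
    by_contra hcon
    push Not at hcon
    obtain ⟨c, hc⟩ := (InfiniteGalois.mem_range_algebraMap_iff_fixed θ).2 hcon
    apply ha
    refine ⟨c, (algebraMap k Ω).injective ?_⟩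
    rw [map_pow, hc, hθ]
  have h1 : (σ θ / θ) ^ q = 1 := by
    rw [div_pow, ← map_pow, hθ, AlgEquiv.commutes, ← hθ, div_self (pow_ne_zero q hθ0)]
  obtain ⟨j, hj, h2⟩ := hZ.eq_pow_of_pow_eq_one h1
  have hσθ : σ θ = algebraMap k Ω ζ ^ j * θ := by rw [h2, div_mul_cancel₀ _ hθ0]
  have hj0 : j ≠ 0 := by
    rintro rfl
    rw [pow_zero, one_mul] at hσθ
    exact hσ hσθ
  have hpow : ∀ m : ℕ, (σ ^ m) θ = algebraMap k Ω ζ ^ (m * j) * θ := by
    intro m
    induction m with
    | zero => rw [pow_zero, Nat.zero_mul, pow_zero, one_mul, AlgEquiv.one_apply]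
    | succ m ih =>
      rw [pow_succ', AlgEquiv.mul_apply, ih, map_mul, map_pow, AlgEquiv.commutes, hσθ,
        ← mul_assoc, ← pow_add]
      congr 2
      ring
  obtain ⟨m, -, hm⟩ := Nat.exists_mul_mod_eq_one_of_coprime
    ((Nat.coprime_of_lt_prime hj0 hj hqq).symm) hqq.one_lt
  refine ⟨σ ^ (i * m), ?_⟩
  rw [hpow, map_pow]
  congr 1
  have h3 : algebraMap k Ω ζ ^ (j * m) = algebraMap k Ω ζ := by
    rw [← Nat.div_add_mod (j * m) q, hm, pow_add, pow_mul, hZ.pow_eq_one, one_pow, one_mul,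
      pow_one]
  have h4 : i * m * j = (j * m) * i := by ring
  rw [h4, pow_mul, h3]

omit [Fact q.Prime] in
/-- the inverse Fourier transform -/
lemma fourier {Z : Ω} (hZ : IsPrimitiveRoot Z q) (θ : Ω) (r : ℕ → Ω) {j : ℕ} (hj : j < q) :
    ∑ i ∈ Finset.range q, Z ^ (i * (q - j)) * ∑ l ∈ Finset.range q, r l * (Z ^ i * θ) ^ l =
      q * (r j * θ ^ j) := by
  have h1 : ∀ i ∈ Finset.range q, Z ^ (i * (q - j)) *
      ∑ l ∈ Finset.range q, r l * (Z ^ i * θ) ^ l =
      ∑ l ∈ Finset.range q, (r l * θ ^ l) * (Z ^ (q - j + l)) ^ i := by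
    intro i _
    rw [Finset.mul_sum]
    refine Finset.sum_congr rfl (fun l _ => ?_)
    rw [mul_pow, ← pow_mul, ← pow_mul]
    have h2 : (q - j + l) * i = i * (q - j) + i * l := by ring
    rw [h2, pow_add]
    ring
  rw [Finset.sum_congr rfl h1, Finset.sum_comm]
  have h2 : ∀ l ∈ Finset.range q, ∑ i ∈ Finset.range q, (r l * θ ^ l) * (Z ^ (q - j + l)) ^ i =
      if l = j then q * (r j * θ ^ j) else 0 := by
    intro l hl
    have hl' := Finset.mem_range.1 hl
    rw [← Finset.mul_sum]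
    split_ifs with h
    · subst h
      have h3 : q - l + l = q := Nat.sub_add_cancel hj.le
      rw [h3, hZ.pow_eq_one]
      simp [mul_comm]
    · have h3 : Z ^ (q - j + l) ≠ 1 := by
        intro h4
        have h5 := (hZ.pow_eq_one_iff_dvd _).1 h4
        obtain ⟨t, ht⟩ := h5
        have h6 : t = 1 ∨ t = 0 ∨ 2 ≤ t := by omega
        rcases h6 with rfl | rfl | h6
        · omega
        · omega
        · have h7 : q * 2 ≤ q * t := Nat.mul_le_mul_left q h6
          omega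
      have h4 : (∑ i ∈ Finset.range q, (Z ^ (q - j + l)) ^ i) * (Z ^ (q - j + l) - 1) = 0 := by
        rw [geom_sum_mul, ← pow_mul, mul_comm, pow_mul, hZ.pow_eq_one, one_pow, sub_self]
      rw [(mul_eq_zero.1 h4).resolve_right (sub_ne_zero.2 h3), mul_zero]
  rw [Finset.sum_congr rfl h2, Finset.sum_ite_eq' (Finset.range q) j, if_pos
    (Finset.mem_range.2 hj)]

end geom

section normed

variable {k : Type u} [NontriviallyNormedField k] [IsUltrametricDist k]
  {q : ℕ} [Fact q.Prime] {ζ : k}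

omit [IsUltrametricDist k] in
lemma norm_zeta_one (hζ : IsPrimitiveRoot ζ q) : ‖ζ‖ = 1 := by
  have h1 : ‖ζ‖ ^ q = 1 := by rw [← norm_pow, hζ.pow_eq_one, norm_one]
  exact (pow_eq_one_iff_of_nonneg (norm_nonneg _) (Fact.out : q.Prime).ne_zero).1 h1

/-- a product of elements close to `x` is close to a power of `x` -/
lemma prod_close (x : k) (hx : ‖x‖ ≤ 1) (w : ℕ → k) (hw : ∀ i, ‖w i - x‖ < 1) (n : ℕ) :
    ‖∏ i ∈ Finset.range n, w i - x ^ n‖ < 1 := by
  induction n with
  | zero => simp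
  | succ n ih =>
    have h1 : ∏ i ∈ Finset.range (n + 1), w i - x ^ (n + 1) =
        (∏ i ∈ Finset.range n, w i - x ^ n) * w n + x ^ n * (w n - x) := by
      rw [Finset.prod_range_succ]
      ring
    have h2 : ‖w n‖ ≤ 1 := by
      have h3 : w n = (w n - x) + x := by ring
      rw [h3]
      exact (norm_add_le_max' _ _).trans (max_le (hw n).le hx)
    rw [h1]
    refine lt_of_le_of_lt (norm_add_le_max' _ _) (max_lt ?_ ?_)
    · rw [norm_mul]
      calc ‖∏ i ∈ Finset.range n, w i - x ^ n‖ * ‖w n‖ ≤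
            ‖∏ i ∈ Finset.range n, w i - x ^ n‖ * 1 := by gcongr
        _ < 1 := by rw [mul_one]; exact ih
    · rw [norm_mul, norm_pow]
      calc ‖x‖ ^ n * ‖w n - x‖ ≤ 1 * ‖w n - x‖ := by
            gcongr
            exact pow_le_one₀ (norm_nonneg _) hx
        _ < 1 := by rw [one_mul]; exact hw n

variable [ProperSpace k]

/-- a unit whose residue is not a `q`-th power -/
lemma exists_nonpow (hq : ‖(q : k)‖ = 1) (hζ : IsPrimitiveRoot ζ q) :
    ∃ b : k, ‖b‖ = 1 ∧ ∀ c : k, ‖c‖ ≤ 1 → ¬ ‖b - c ^ q‖ < 1 := by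
  have hqq : q.Prime := Fact.out
  have hz1 := norm_zeta_one hζ
  have hz2 : ‖ζ - 1‖ = 1 := by
    have h1 := norm_zeta hζ
    rw [hq] at h1
    have h2 : q - 1 ≠ 0 := by have := hqq.two_le; omega
    exact (pow_eq_one_iff_of_nonneg (norm_nonneg _) h2).1 h1
  have hle : ‖ζ - 1‖ ≤ 1 := hz2.le
  have hninj : ¬ Function.Injective (fun x : kap k => x ^ q) := by
    intro hinj
    have h1 : rs ζ = rs (1 : k) := by
      apply hinj
      show rs ζ ^ q = rs (1 : k) ^ q
      rw [← rs_pow ζ hz1.le, hζ.pow_eq_one, rs_one, one_pow]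
    have h2 : rs ζ = rs (ζ - 1) + rs (1 : k) := by
      rw [← rs_add _ _ hle norm_one.le, sub_add_cancel]
    rw [h1] at h2
    have h3 : rs (ζ - 1) = 0 := by
      have h4 : (0 : kap k) + rs (1 : k) = rs (ζ - 1) + rs (1 : k) := by rw [zero_add]; exact h2
      exact (add_right_cancel h4).symm
    rw [rs_eq_zero_iff _ hle] at h3
    exact h3.ne hz2
  have hnsurj : ¬ Function.Surjective (fun x : kap k => x ^ q) := fun h =>
    hninj (Finite.injective_iff_surjective.2 h)
  rw [Function.Surjective] at hnsurj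
  push Not at hnsurj
  obtain ⟨v, hv⟩ := hnsurj
  obtain ⟨b, hb, hbv⟩ := rs_surj v
  refine ⟨b, ?_, ?_⟩
  · apply le_antisymm hb
    by_contra hcon
    push Not at hcon
    have h1 := (rs_eq_zero_iff b hb).2 hcon
    apply hv 0
    rw [← hbv, h1, zero_pow hqq.ne_zero]
  · intro c hc h1
    have hcq : ‖c ^ q‖ ≤ 1 := by rw [norm_pow]; exact pow_le_one₀ (norm_nonneg _) hc
    have h2 : rs b = rs (b - c ^ q) + rs (c ^ q) := by
      rw [← rs_add _ _ h1.le hcq, sub_add_cancel]
    rw [(rs_eq_zero_iff _ h1.le).2 h1, zero_add, rs_pow c hc] at h2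
    apply hv (rs c)
    rw [← hbv, h2]

/-- **The tame symbol is nondegenerate**, normed version. -/
theorem exists_ne_nrm [CharZero k] (hq : ‖(q : k)‖ = 1) (hζ : IsPrimitiveRoot ζ q) (a : k)
    (ha0 : a ≠ 0) (ha : ¬ ∃ c : k, a = c ^ q) : ∃ b : k, b ≠ 0 ∧ ∀ f : k[X], b ≠ nrm q ζ f a := by
  have hqq : q.Prime := Fact.out
  have hq0 : 0 < q := hqq.pos
  let _ : NontriviallyNormedField (AlgebraicClosure k) :=
    spectralNorm.nontriviallyNormedField k (AlgebraicClosure k)
  have hu : IsUltrametricDist (AlgebraicClosure k) :=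
    IsUltrametricDist.isUltrametricDist_of_isNonarchimedean_norm isNonarchimedean_spectralNorm
  have hn : ∀ x : k, ‖algebraMap k (AlgebraicClosure k) x‖ = ‖x‖ := fun x =>
    spectralNorm_extends x
  have hinv : ∀ (σ : Gal(AlgebraicClosure k/k)) (x : AlgebraicClosure k), ‖σ x‖ = ‖x‖ :=
    fun σ x => (spectralNorm_eq_of_equiv σ x).symm
  set Z := algebraMap k (AlgebraicClosure k) ζ with hZdef
  have hZ : IsPrimitiveRoot Z q := hζ.map_of_injective (algebraMap k (AlgebraicClosure k)).injective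
  have hZn : ∀ i : ℕ, ‖Z ^ i‖ = 1 := fun i => by
    rw [norm_pow, hZdef, hn, norm_zeta_one hζ, one_pow]
  obtain ⟨θ, hθ⟩ := IsAlgClosed.exists_pow_nat_eq (algebraMap k (AlgebraicClosure k) a) hq0
  have hθ0 : θ ≠ 0 := by
    rintro rfl
    rw [zero_pow hqq.ne_zero] at hθ
    exact ha0 ((map_eq_zero _).1 hθ.symm)
  have hθn : ‖θ‖ ^ q = ‖a‖ := by rw [← norm_pow, hθ, hn]
  have hθpos : 0 < ‖θ‖ := norm_pos_iff.2 hθ0
  -- the facts on norms
  have key : ∀ f : k[X], nrm q ζ f a ≠ 0 → ∃ (r : ℕ → k) (ρ : ℝ), 0 < ρ ∧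
      ‖nrm q ζ f a‖ = ρ ^ q ∧ (∀ j < q, ‖r j‖ * ‖θ‖ ^ j ≤ ρ) ∧ (∃ j < q, ‖r j‖ * ‖θ‖ ^ j = ρ) ∧
      algebraMap k (AlgebraicClosure k) (nrm q ζ f a) = ∏ i ∈ Finset.range q,
        ∑ l ∈ Finset.range q, algebraMap k (AlgebraicClosure k) (r l) * (Z ^ i * θ) ^ l := by
    intro f hf0
    have hmon : (X ^ q - C a : k[X]).Monic := monic_X_pow_sub_C a hqq.ne_zero
    set f1 := f %ₘ (X ^ q - C a) with hf1
    have hdeg1 : f1.natDegree < q := by
      have h1 := natDegree_modByMonic_lt f hmon (by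
        intro h
        have h2 := congrArg natDegree h
        rw [natDegree_X_pow_sub_C, natDegree_one] at h2
        exact hqq.ne_zero h2)
      rwa [natDegree_X_pow_sub_C] at h1
    have hev1 : ∀ w : AlgebraicClosure k, w ^ q = algebraMap k _ a → aeval w f =
        ∑ l ∈ Finset.range q, algebraMap k (AlgebraicClosure k) (f1.coeff l) * w ^ l := by
      intro w hw
      have h1 := modByMonic_add_div f (X ^ q - C a)
      have h2 := congrArg (aeval w) h1
      have h3 : aeval w f = aeval w f1 := by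
        rw [← h2, map_add, map_mul]
        simp [hw, hf1]
      rw [h3, aeval_eq_sum_range' hdeg1]
      exact Finset.sum_congr rfl (fun l _ => Algebra.smul_def _ _)
    have hw : ∀ i : ℕ, (Z ^ i * θ) ^ q = algebraMap k (AlgebraicClosure k) a := by
      intro i
      rw [mul_pow, hθ, ← pow_mul, mul_comm i, pow_mul, hZ.pow_eq_one, one_pow, one_mul]
    have hN : algebraMap k (AlgebraicClosure k) (nrm q ζ f a) = ∏ i ∈ Finset.range q,
        ∑ l ∈ Finset.range q,
          algebraMap k (AlgebraicClosure k) (f1.coeff l) * (Z ^ i * θ) ^ l := by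
      rw [nrm_spec hq0 hζ f a θ hθ]
      refine Finset.prod_congr rfl (fun i _ => ?_)
      rw [map_pow]
      exact hev1 _ (hw i)
    set S : ℕ → AlgebraicClosure k := fun i => ∑ l ∈ Finset.range q,
      algebraMap k (AlgebraicClosure k) (f1.coeff l) * (Z ^ i * θ) ^ l with hS
    have hSn : ∀ i, ‖S i‖ = ‖S 0‖ := by
      intro i
      obtain ⟨σ, hσ⟩ := exists_conj hζ a ha0 ha θ hθ i
      have h1 : S i = σ (S 0) := by
        simp only [hS]
        rw [map_sum]
        refine Finset.sum_congr rfl (fun l _ => ?_)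
        rw [map_mul, AlgEquiv.commutes, map_pow, pow_zero, one_mul, hσ, map_pow]
      rw [h1, hinv]
    have hNn : ‖nrm q ζ f a‖ = ‖S 0‖ ^ q := by
      rw [← hn, hN, norm_prod, Finset.prod_congr rfl (fun i _ => hSn i), Finset.prod_const,
        Finset.card_range]
    have hS0 : 0 < ‖S 0‖ := by
      rw [norm_pos_iff]
      intro h0
      rw [h0, norm_zero, zero_pow hqq.ne_zero, norm_eq_zero] at hNn
      exact hf0 hNn
    have hle : ∀ j < q, ‖f1.coeff j‖ * ‖θ‖ ^ j ≤ ‖S 0‖ := by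
      intro j hj
      have h1 := fourier hZ θ (fun l => algebraMap k (AlgebraicClosure k) (f1.coeff l)) hj
      have h2 := congrArg norm h1
      have h3 : ‖(q : AlgebraicClosure k)‖ = 1 := by
        rw [← map_natCast (algebraMap k (AlgebraicClosure k)), hn, hq]
      rw [norm_mul, norm_mul, h3, one_mul, hn, norm_pow] at h2
      rw [← h2]
      apply IsUltrametricDist.norm_sum_le_of_forall_le_of_nonneg (norm_nonneg _)
      intro i _
      rw [norm_mul, hZn, one_mul]
      exact (hSn i).le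
    have hex : ∃ j < q, ‖f1.coeff j‖ * ‖θ‖ ^ j = ‖S 0‖ := by
      by_contra hcon
      push Not at hcon
      have h1 : ∀ j < q, ‖f1.coeff j‖ * ‖θ‖ ^ j < ‖S 0‖ := fun j hj =>
        lt_of_le_of_ne (hle j hj) (hcon j hj)
      obtain ⟨j, hj, hmax⟩ := Finset.exists_max_image (Finset.range q)
        (fun l => ‖f1.coeff l‖ * ‖θ‖ ^ l) ⟨0, Finset.mem_range.2 hq0⟩
      have h2 : ‖S 0‖ ≤ ‖f1.coeff j‖ * ‖θ‖ ^ j := by
        apply IsUltrametricDist.norm_sum_le_of_forall_le_of_nonneg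
          (mul_nonneg (norm_nonneg _) (pow_nonneg (norm_nonneg _) _))
        intro l hl
        rw [norm_mul, hn, pow_zero, one_mul, norm_pow]
        exact hmax l hl
      exact absurd h2 (not_le.2 (h1 j (Finset.mem_range.1 hj)))
    exact ⟨f1.coeff, ‖S 0‖, hS0, hNn, hle, hex, hN⟩
  -- powers of the uniformizer
  have hπ := unif_pos (k := k)
  by_cases hA : (q : ℤ) ∣ nval a
  · -- the unramified case
    obtain ⟨t, ht⟩ := hA
    have hθt : ‖θ‖ = ‖unif k‖ ^ t := by
      have h1 : ‖θ‖ ^ q = (‖unif k‖ ^ t) ^ q := by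
        rw [hθn, norm_eq_nval a ha0, ht, mul_comm, zpow_mul, zpow_natCast]
      exact (pow_left_inj₀ (norm_nonneg _) (zpow_nonneg hπ.le t) hqq.ne_zero).1 h1
    refine ⟨unif k, unif_ne, fun f hf => ?_⟩
    obtain ⟨r, ρ, hρ, h1, -, ⟨j, -, h2⟩, -⟩ := key f (by rw [← hf]; exact unif_ne)
    have hrj : r j ≠ 0 := by
      intro h0
      rw [h0, norm_zero, zero_mul] at h2
      exact hρ.ne h2
    rw [norm_eq_nval (r j) hrj, hθt, ← zpow_natCast, ← zpow_mul, ← zpow_add₀ hπ.ne'] at h2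
    rw [← hf, ← h2, ← zpow_natCast, ← zpow_mul] at h1
    have h3 := nval_eq h1
    rw [nval_unif] at h3
    have h4 : (q : ℤ) ∣ 1 := Dvd.intro_left _ h3.symm
    have h5 := Int.le_of_dvd one_pos h4
    have h6 := hqq.two_le
    omega
  · -- the ramified case
    obtain ⟨b, hb, hbq⟩ := exists_nonpow hq hζ
    have hb0 : b ≠ 0 := by
      rintro rfl
      rw [norm_zero] at hb
      exact zero_ne_one hb
    refine ⟨b, hb0, fun f hf => ?_⟩
    obtain ⟨r, ρ, hρ, h1, h2, -, h3⟩ := key f (by rw [← hf]; exact hb0)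
    have hρ1 : ρ = 1 := by
      rw [← hf, hb] at h1
      exact (pow_eq_one_iff_of_nonneg hρ.le hqq.ne_zero).1 h1.symm
    rw [hρ1] at h2
    have hlt : ∀ j < q, j ≠ 0 → ‖r j‖ * ‖θ‖ ^ j < 1 := by
      intro j hj hj0
      refine lt_of_le_of_ne (h2 j hj) (fun h4 => ?_)
      have hrj : r j ≠ 0 := by
        intro h0
        rw [h0, norm_zero, zero_mul] at h4
        exact zero_ne_one h4
      have h5 : ‖r j‖ ^ q * ‖a‖ ^ j = 1 := by
        rw [← hθn, ← pow_mul, mul_comm q j, pow_mul, ← mul_pow, h4, one_pow]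
      rw [norm_eq_nval (r j) hrj, norm_eq_nval a ha0, ← zpow_natCast, ← zpow_natCast, ← zpow_mul,
        ← zpow_mul, ← zpow_add₀ hπ.ne'] at h5
      have h6 : nval (r j) * (q : ℤ) + nval a * (j : ℤ) = 0 := by
        apply zpow_inj' (k := k)
        rw [h5, zpow_zero]
      have h7 : (q : ℤ) ∣ nval a * (j : ℤ) := by
        refine ⟨-nval (r j), ?_⟩
        linarith
      rcases (Nat.prime_iff_prime_int.1 hqq).dvd_or_dvd h7 with h8 | h8
      · exact hA h8
      · have h9 := Nat.le_of_dvd (Nat.pos_of_ne_zero hj0) (Int.natCast_dvd_natCast.1 h8)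
        omega
    have hr0 : ‖r 0‖ ≤ 1 := by
      have h4 := h2 0 hq0
      rwa [pow_zero, mul_one] at h4
    apply hbq (r 0) hr0
    have h4 := prod_close (algebraMap k (AlgebraicClosure k) (r 0)) (by rw [hn]; exact hr0)
      (fun i => ∑ l ∈ Finset.range q, algebraMap k (AlgebraicClosure k) (r l) * (Z ^ i * θ) ^ l)
      (by
        intro i
        obtain ⟨m, hm⟩ : ∃ m, q = m + 1 := ⟨q - 1, by omega⟩
        have h5 : ∑ l ∈ Finset.range q, algebraMap k (AlgebraicClosure k) (r l) *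
            (Z ^ i * θ) ^ l - algebraMap k (AlgebraicClosure k) (r 0) =
            ∑ l ∈ Finset.range m, algebraMap k (AlgebraicClosure k) (r (l + 1)) *
              (Z ^ i * θ) ^ (l + 1) := by
          rw [hm, Finset.sum_range_succ', pow_zero, mul_one, add_sub_cancel_right]
        rw [h5]
        have h6 : ∀ l ∈ Finset.range m, ‖algebraMap k (AlgebraicClosure k) (r (l + 1)) *
            (Z ^ i * θ) ^ (l + 1)‖ < 1 := by
          intro l hl
          rw [norm_mul, hn, norm_pow, norm_mul, hZn, one_mul]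
          exact hlt (l + 1) (by rw [hm]; have := Finset.mem_range.1 hl; omega) (by omega)
        rcases Nat.eq_zero_or_pos m with rfl | hm0
        · simp
        obtain ⟨l, hl, hmax⟩ := Finset.exists_max_image (Finset.range m)
          (fun l => ‖algebraMap k (AlgebraicClosure k) (r (l + 1)) * (Z ^ i * θ) ^ (l + 1)‖)
          ⟨0, Finset.mem_range.2 hm0⟩
        refine lt_of_le_of_lt ?_ (h6 l hl)
        exact IsUltrametricDist.norm_sum_le_of_forall_le_of_nonneg (norm_nonneg _)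
          (fun l' hl' => hmax l' hl')) q
    rw [← h3, ← hf, ← map_pow, ← map_sub, hn] at h4
    exact h4

end normed

/-- **Nondegeneracy of the tame symbol** of a `p`-adic field. -/
theorem exists_nonnorm_tame {p q : ℕ} [Fact p.Prime] [Fact q.Prime] (hqp : q ≠ p) {k : Type u}
    [Field k] [Algebra ℚ_[p] k] [FiniteDimensional ℚ_[p] k] {ζ : k} (hζ : IsPrimitiveRoot ζ q)
    (a : k) (ha0 : a ≠ 0) (ha : ¬ ∃ c : k, a = c ^ q) :
    ∃ b : k, b ≠ 0 ∧ ¬ SymbolTrivial q a b := by
  let inst1 : NontriviallyNormedField k := spectralNorm.nontriviallyNormedField ℚ_[p] k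
  have hu : IsUltrametricDist k :=
    IsUltrametricDist.isUltrametricDist_of_isNonarchimedean_norm isNonarchimedean_spectralNorm
  have hn : ∀ x : ℚ_[p], ‖algebraMap ℚ_[p] k x‖ = ‖x‖ := fun x => spectralNorm_extends x
  have hproper : ProperSpace k := by
    let _ : NormedAlgebra ℚ_[p] k := spectralNorm.normedAlgebra ℚ_[p] k
    exact FiniteDimensional.proper ℚ_[p] k
  have : CharZero k := charZero_of_injective_algebraMap (algebraMap ℚ_[p] k).injective
  have hq : ‖(q : k)‖ = 1 := by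
    rw [← map_natCast (algebraMap ℚ_[p] k), hn, Padic.norm_natCast_eq_one_iff]
    exact (Nat.coprime_primes (Fact.out : p.Prime) (Fact.out : q.Prime)).2 hqp.symm
  obtain ⟨b, hb0, hb⟩ := exists_ne_nrm hq hζ a ha0 ha
  refine ⟨b, hb0, ?_⟩
  rintro (h | ⟨z, hz⟩)
  · exact ha h
  · obtain ⟨f, rfl⟩ := AdjoinRoot.mk_surjective z
    rw [← AdjoinRoot.aeval_eq, norm_eq_nrm hζ a ha0 ha] at hz
    exact hb f hz.symm

end P025H461
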