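import Vale.Agent.P025.H461.Desc

/-! # All the data attached to a cyclic extension of prime degree -/

open IntermediateField Polynomial

namespace P025H461

universe u v w

/-- Kummer generator and descent of norms for a cyclic extension of prime degree. -/
theorem exists_desc {k : Type u} {k₁ : Type v} {Ω : Type w} [Field k] [CharZero k] [Field k₁]
    [Field Ω] [Algebra k k₁] [Algebra k Ω] [IsAlgClosed Ω] [Algebra.IsAlgebraic k Ω]
    [IsGalois k k₁] (p : ℕ) [Fact p.Prime] (hdeg : Module.finrank k k₁ = p) :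
    ∃ (e₁ : k₁ →ₐ[k] Ω) (ζ θ : Ω) (τ : Gal(Ω/k)) (σ : Gal(k₁/k)), IsPrimitiveRoot ζ p ∧ θ ≠ 0 ∧
      τ ζ = ζ ∧ τ θ = ζ * θ ∧ (∀ g : Gal(Ω/k), g ζ = ζ → g (θ ^ p) = θ ^ p) ∧
      (∀ c, τ (e₁ c) = e₁ (σ c)) ∧ orderOf σ = p ∧
      (∀ g : Gal(Ω/k), g ζ = ζ → g θ = θ → ∀ c, g (e₁ c) = e₁ c) ∧
      (∀ z : Ω, (∀ h : Gal(Ω/k), h ζ = ζ → h θ = θ → h z = z) → ∀ b : k,
        ∏ i ∈ Finset.range p, (τ ^ i) z = algebraMap k Ω b → ∃ z₁ : k₁, Algebra.norm k z₁ = b) := by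
  classical
  have hp : p.Prime := Fact.out
  have hfin : FiniteDimensional k k₁ := Module.finite_of_finrank_pos (by rw [hdeg]; exact hp.pos)
  have hclos : IsAlgClosure k Ω := ⟨inferInstance, inferInstance⟩
  have hnorm : Normal k Ω := IsAlgClosure.normal k Ω
  have hgal : IsGalois k Ω := ⟨⟩
  have hcharΩ : CharZero Ω := charZero_of_injective_algebraMap (algebraMap k Ω).injective
  let e₁ : k₁ →ₐ[k] Ω := IsAlgClosed.lift
  obtain ⟨ζ, hζroot⟩ := IsAlgClosed.exists_root (cyclotomic p Ω)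
    (degree_cyclotomic_pos p _ hp.pos).ne'
  have hnz : NeZero ((p : ℕ) : Ω) := ⟨by exact_mod_cast hp.ne_zero⟩
  have hζ : IsPrimitiveRoot ζ p := isRoot_cyclotomic_iff.1 hζroot
  obtain ⟨τ, θ, hτζ, hτe, hθ0, hτθ, hθp, hθ⟩ := exists_theta hdeg e₁ hζ
  obtain ⟨σ, hσ⟩ := exists_restr e₁ τ
  have hσ1 : σ ≠ 1 := by
    rintro rfl
    obtain ⟨x, hx⟩ := hτe
    exact hx (by rw [← hσ, AlgEquiv.one_apply])
  have hcardG : Nat.card Gal(k₁/k) = p := by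
    rw [IsGalois.card_aut_eq_finrank, hdeg]
  have hord : orderOf σ = p := by
    have h1 : orderOf σ ∣ p := hcardG ▸ orderOf_dvd_natCard σ
    rcases (Nat.dvd_prime hp).1 h1 with h2 | h2
    · exact absurd (orderOf_eq_one_iff.1 h2) hσ1
    · exact h2
  refine ⟨e₁, ζ, θ, τ, σ, hζ, hθ0, hτζ, hτθ, hθp, fun c => (hσ c).symm, hord,
    fun g h1 h2 => (hθ g h1).1 h2, ?_⟩
  intro z hz b hb
  by_cases hb0 : b = 0
  · exact ⟨0, by rw [hb0, Algebra.norm_zero]⟩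
  exact desc hp hdeg e₁ hζ τ hτζ hτe z (fun g h1 h2 => hz g h1 ((hθ g h1).2 h2)) hb0 hb

end P025H461
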