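import Vale.Agent.P025.H641.Sec

/-! # Descent of norms from `k(ζ)` to `k`

`k₁ / k` is Galois of prime degree `p`. An element of `k` which becomes a norm after adjoining the
`p`-th roots of unity is a norm. -/

open IntermediateField Polynomial

namespace P025H461

universe u v w

section finite

variable {k : Type u} {L : Type v} {k₁ : Type w} [Field k] [Field L] [Field k₁]
  [Algebra k L] [Algebra k k₁]

/-- restriction of automorphisms to normal subextensions -/
lemma exists_restr [Normal k k₁] (e : k₁ →ₐ[k] L) (τ : L ≃ₐ[k] L) :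
    ∃ g : k₁ ≃ₐ[k] k₁, ∀ x, e (g x) = τ (e x) := by
  let _ : Algebra k₁ L := e.toRingHom.toAlgebra
  have ht : IsScalarTower k k₁ L := IsScalarTower.of_algebraMap_eq (fun x => (e.commutes x).symm)
  exact ⟨τ.restrictNormal k₁, fun x => τ.restrictNormal_commutes k₁ x⟩

/-- the product over a cyclic group of prime order -/
lemma prod_pow_eq {C : Type*} [Group C] [Fintype C] {p : ℕ} (hp : p.Prime)
    (hC : Fintype.card C = p) {g : C} (hg : g ≠ 1) {M : Type*} [CommMonoid M] (f : C → M) :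
    ∏ i ∈ Finset.range p, f (g ^ i) = ∏ c : C, f c := by
  classical
  have hfact : Fact p.Prime := ⟨hp⟩
  have hord : orderOf g = p := by
    have h1 : orderOf g ∣ p := hC ▸ orderOf_dvd_card
    rcases (Nat.dvd_prime hp).1 h1 with h2 | h2
    · exact absurd (orderOf_eq_one_iff.1 h2) hg
    · exact h2
  have hinj : Set.InjOn (fun i => g ^ i) (Finset.range p : Set ℕ) := by
    intro i hi j hj hij
    rw [Finset.coe_range, Set.mem_Iio, ← hord] at hi hj
    exact pow_injOn_Iio_orderOf hi hj hij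
  have himg : (Finset.range p).image (fun i => g ^ i) = Finset.univ := by
    apply Finset.eq_univ_of_card
    rw [Finset.card_image_of_injOn hinj, Finset.card_range, hC]
  rw [← himg, Finset.prod_image hinj]

variable [FiniteDimensional k L] [IsGalois k L] [FiniteDimensional k k₁] [IsGalois k k₁]

/-- **Descent, finite version.** -/
theorem desc_fin {p : ℕ} (hp : p.Prime) (hdeg : Module.finrank k k₁ = p) (e : k₁ →ₐ[k] L)
    {ζ : L} (hζ : IsPrimitiveRoot ζ p)
    (hgen : ∀ δ : L ≃ₐ[k] L, (∀ x, δ (e x) = e x) → δ ζ = ζ → δ = 1)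
    (τ : L ≃ₐ[k] L) (hτζ : τ ζ = ζ) (hτe : ∃ x, τ (e x) ≠ e x) (z : L) {b : k} (hb : b ≠ 0)
    (hz : ∏ i ∈ Finset.range p, (τ ^ i) z = algebraMap k L b) :
    ∃ z₁ : k₁, Algebra.norm k z₁ = b := by
  classical
  have hfact : Fact p.Prime := ⟨hp⟩
  set A : Subgroup (L ≃ₐ[k] L) := e.fieldRange.fixingSubgroup with hA
  have hAmem : ∀ δ ∈ A, ∀ x, δ (e x) = e x := by
    intro δ hδ x
    exact (IntermediateField.mem_fixingSubgroup_iff _ _).1 hδ (e x) ⟨x, rfl⟩
  -- commutation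
  have hcomm : ∀ δ ∈ A, δ * τ = τ * δ := by
    intro δ hδ
    obtain ⟨g, hg⟩ := exists_restr e τ
    have hδζ : ∃ j : ℕ, δ ζ = ζ ^ j := by
      have h1 : (δ ζ) ^ p = 1 := by rw [← map_pow, hζ.pow_eq_one, map_one]
      obtain ⟨i, -, hi⟩ := hζ.eq_pow_of_pow_eq_one h1
      exact ⟨i, hi.symm⟩
    obtain ⟨j, hj⟩ := hδζ
    have h1 : (τ * δ)⁻¹ * (δ * τ) = 1 := by
      apply hgen
      · intro x
        have h2 : (δ * τ) (e x) = (τ * δ) (e x) := by
          rw [AlgEquiv.mul_apply, AlgEquiv.mul_apply, hAmem δ hδ, ← hg, hAmem δ hδ]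
        rw [AlgEquiv.mul_apply, h2, ← AlgEquiv.mul_apply, inv_mul_cancel, AlgEquiv.one_apply]
      · have h2 : (δ * τ) ζ = (τ * δ) ζ := by
          rw [AlgEquiv.mul_apply, AlgEquiv.mul_apply, hτζ, hj, map_pow, hτζ]
        rw [AlgEquiv.mul_apply, h2, ← AlgEquiv.mul_apply, inv_mul_cancel, AlgEquiv.one_apply]
    exact (inv_mul_eq_one.1 h1).symm
  have hcommi : ∀ δ ∈ A, ∀ i : ℕ, δ * τ ^ i = τ ^ i * δ := by
    intro δ hδ i
    have h1 : Commute δ τ := hcomm δ hδ
    exact h1.pow_right i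
  -- the order of `A`
  have hcard : Nat.card A ∣ p - 1 := by
    have hinj : Function.Injective ((hζ.autToPow k).comp A.subtype) := by
      rw [injective_iff_map_eq_one]
      intro δ hδ
      apply Subtype.ext
      apply hgen
      · exact hAmem δ δ.2
      · have h1 := hζ.autToPow_spec k (δ : L ≃ₐ[k] L)
        have h2 : hζ.autToPow k (δ : L ≃ₐ[k] L) = 1 := hδ
        rw [h2] at h1
        rw [← h1]
        have h3 : ((1 : (ZMod p)ˣ) : ZMod p).val = 1 := by
          rw [Units.val_one, ZMod.val_one]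
        rw [h3, pow_one]
    have h1 := Subgroup.card_dvd_of_injective _ hinj
    rw [Nat.card_eq_fintype_card (α := (ZMod p)ˣ), ZMod.card_units] at h1
    exact h1
  -- the partial norm
  set y : L := ∏ δ : A, (δ : L ≃ₐ[k] L) z with hy
  have hyA : ∀ δ ∈ A, δ y = y := by
    intro δ hδ
    rw [hy, map_prod]
    refine Fintype.prod_equiv (Equiv.mulLeft (⟨δ, hδ⟩ : A)) _ _ (fun x => ?_)
    rfl
  have hyF : y ∈ e.fieldRange := by
    rw [← IsGalois.fixedField_fixingSubgroup e.fieldRange, IntermediateField.mem_fixedField_iff]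
    exact hyA
  obtain ⟨y₁, hy₁⟩ := hyF
  have hy₁' : e y₁ = y := hy₁
  -- the norm of `y`
  obtain ⟨g, hg⟩ := exists_restr e τ
  have hg1 : g ≠ 1 := by
    rintro rfl
    obtain ⟨x, hx⟩ := hτe
    exact hx (by rw [← hg, AlgEquiv.one_apply])
  have hgi : ∀ i : ℕ, ∀ x, e ((g ^ i) x) = (τ ^ i) (e x) := by
    intro i
    induction i with
    | zero => intro x; rw [pow_zero, pow_zero, AlgEquiv.one_apply, AlgEquiv.one_apply]
    | succ i ih =>
      intro x
      rw [pow_succ, pow_succ, AlgEquiv.mul_apply, AlgEquiv.mul_apply, ih, hg]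
  have hcardG : Fintype.card (k₁ ≃ₐ[k] k₁) = p := by
    rw [← Nat.card_eq_fintype_card, IsGalois.card_aut_eq_finrank, hdeg]
  have hnorm : Algebra.norm k y₁ = b ^ (Nat.card A) := by
    apply (algebraMap k L).injective
    have h1 : algebraMap k L (Algebra.norm k y₁) = e (algebraMap k k₁ (Algebra.norm k y₁)) :=
      (e.commutes _).symm
    rw [h1, Algebra.norm_eq_prod_automorphisms k y₁,
      ← prod_pow_eq hp hcardG hg1 (fun c => c y₁), map_prod]
    have h2 : ∀ i ∈ Finset.range p, e ((g ^ i) y₁) =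
        ∏ δ : A, (δ : L ≃ₐ[k] L) ((τ ^ i) z) := by
      intro i _
      rw [hgi, hy₁', hy, map_prod]
      refine Finset.prod_congr rfl (fun δ _ => ?_)
      rw [← AlgEquiv.mul_apply, ← AlgEquiv.mul_apply, hcommi δ δ.2]
    rw [Finset.prod_congr rfl h2, Finset.prod_comm]
    have h3 : ∀ δ ∈ (Finset.univ : Finset A),
        ∏ i ∈ Finset.range p, (δ : L ≃ₐ[k] L) ((τ ^ i) z) = algebraMap k L b := by
      intro δ _
      rw [← map_prod, hz, AlgEquiv.commutes]
    rw [Finset.prod_congr rfl h3, Finset.prod_const, Finset.card_univ, map_pow,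
      Nat.card_eq_fintype_card]
  -- Bezout
  have hcop : Nat.Coprime (Nat.card A) p := by
    have h1 : 0 < p - 1 := Nat.sub_pos_of_lt hp.one_lt
    have h2 : Nat.card A < p := lt_of_le_of_lt (Nat.le_of_dvd h1 hcard) (by omega)
    rw [Nat.coprime_comm]
    refine (Nat.Prime.coprime_iff_not_dvd hp).2 (fun hdvd => ?_)
    exact absurd (Nat.le_of_dvd (Nat.card_pos (α := A)) hdvd) (not_le.2 h2)
  have hbez : ((Nat.card A : ℕ) : ℤ) * Nat.gcdA (Nat.card A) p +
      (p : ℤ) * Nat.gcdB (Nat.card A) p = 1 := by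
    rw [← Nat.gcd_eq_gcd_ab, hcop.gcd_eq_one, Nat.cast_one]
  refine ⟨y₁ ^ (Nat.gcdA (Nat.card A) p) * (algebraMap k k₁ b) ^ (Nat.gcdB (Nat.card A) p), ?_⟩
  let N : k₁ →*₀ k := { Algebra.norm k with map_zero' := Algebra.norm_zero }
  have hN : ∀ x, Algebra.norm k x = N x := fun _ => rfl
  have h1 : N y₁ = b ^ (Nat.card A) := hnorm
  have h2 : N (algebraMap k k₁ b) = b ^ p := by rw [← hN, Algebra.norm_algebraMap, hdeg]
  rw [hN, map_mul, map_zpow₀, map_zpow₀, h1, h2, ← zpow_natCast,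
    ← zpow_natCast, ← zpow_mul, ← zpow_mul, ← zpow_add₀ hb, hbez, zpow_one]

end finite

section infinite

variable {k : Type u} {Ω : Type v} {k₁ : Type w} [Field k] [Field Ω] [Field k₁]
  [Algebra k Ω] [IsGalois k Ω] [Algebra k k₁] [FiniteDimensional k k₁] [IsGalois k k₁]

omit [FiniteDimensional k k₁] [IsGalois k k₁] in
/-- `k₁` is not contained in `k(ζ)` -/
lemma exists_tau {p : ℕ} (hp : p.Prime) (hdeg : Module.finrank k k₁ = p) (e : k₁ →ₐ[k] Ω)
    {ζ : Ω} (hζ : IsPrimitiveRoot ζ p) :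
    ∃ τ : Ω ≃ₐ[k] Ω, τ ζ = ζ ∧ ∃ x, τ (e x) ≠ e x := by
  by_contra hcon
  push Not at hcon
  have hζint : IsIntegral k ζ := Algebra.IsIntegral.isIntegral ζ
  have hle : e.fieldRange ≤ k⟮ζ⟯ := by
    rw [← InfiniteGalois.fixedField_fixingSubgroup (k⟮ζ⟯ : IntermediateField k Ω)]
    rintro _ ⟨x, rfl⟩
    rw [IntermediateField.mem_fixedField_iff]
    intro σ hσ
    rw [IntermediateField.mem_fixingSubgroup_iff] at hσ
    exact hcon σ (hσ ζ (IntermediateField.mem_adjoin_simple_self k ζ)) x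
  have hfin : FiniteDimensional k k⟮ζ⟯ := IntermediateField.adjoin.finiteDimensional hζint
  have h1 : Module.finrank k e.fieldRange ∣ Module.finrank k k⟮ζ⟯ :=
    IntermediateField.finrank_dvd_of_le_right hle
  have h2 : Module.finrank k e.fieldRange = p := by
    rw [← hdeg]
    exact (LinearEquiv.finrank_eq (AlgEquiv.ofInjectiveField e).toLinearEquiv).symm
  have h3 : Module.finrank k k⟮ζ⟯ ≤ p - 1 := by
    rw [IntermediateField.adjoin.finrank hζint]
    have h4 : minpoly k ζ ∣ cyclotomic p k := by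
      apply minpoly.dvd
      have h5 := hζ.isRoot_cyclotomic hp.pos
      rw [IsRoot.def, ← map_cyclotomic p (algebraMap k Ω), eval_map_algebraMap] at h5
      exact h5
    have h5 := natDegree_le_of_dvd h4 (cyclotomic_ne_zero p k)
    rw [natDegree_cyclotomic, Nat.totient_prime hp] at h5
    exact h5
  rw [h2] at h1
  have h4 := Nat.le_of_dvd (Module.finrank_pos) h1
  have := hp.one_lt
  omega

/-- **Kummer generator** of `k₁(ζ) / k(ζ)`. -/
theorem exists_theta {p : ℕ} [Fact p.Prime] (hdeg : Module.finrank k k₁ = p) (e : k₁ →ₐ[k] Ω)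
    {ζ : Ω} (hζ : IsPrimitiveRoot ζ p) :
    ∃ (τ : Ω ≃ₐ[k] Ω) (θ : Ω), τ ζ = ζ ∧ (∃ x, τ (e x) ≠ e x) ∧ θ ≠ 0 ∧ τ θ = ζ * θ ∧
      (∀ σ : Ω ≃ₐ[k] Ω, σ ζ = ζ → σ (θ ^ p) = θ ^ p) ∧
      ∀ σ : Ω ≃ₐ[k] Ω, σ ζ = ζ → (σ θ = θ ↔ ∀ x, σ (e x) = e x) := by
  classical
  have hp : p.Prime := Fact.out
  obtain ⟨τ₀, hτ₀ζ, hτ₀e⟩ := exists_tau hp hdeg e hζ
  obtain ⟨g, hg⟩ := exists_restr e τ₀
  have hg1 : g ≠ 1 := by
    rintro rfl
    obtain ⟨x, hx⟩ := hτ₀e
    exact hx (by rw [← hg, AlgEquiv.one_apply])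
  have hcardG : Fintype.card (k₁ ≃ₐ[k] k₁) = p := by
    rw [← Nat.card_eq_fintype_card, IsGalois.card_aut_eq_finrank, hdeg]
  have hord : orderOf g = p := by
    have h1 : orderOf g ∣ p := hcardG ▸ orderOf_dvd_card
    rcases (Nat.dvd_prime hp).1 h1 with h2 | h2
    · exact absurd (orderOf_eq_one_iff.1 h2) hg1
    · exact h2
  have hall : ∀ c : k₁ ≃ₐ[k] k₁, ∃ i : ℕ, c = g ^ i := by
    intro c
    have hinj : Set.InjOn (fun i => g ^ i) (Finset.range p : Set ℕ) := by
      intro i hi j hj hij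
      rw [Finset.coe_range, Set.mem_Iio, ← hord] at hi hj
      exact pow_injOn_Iio_orderOf hi hj hij
    have himg : (Finset.range p).image (fun i => g ^ i) = Finset.univ := by
      apply Finset.eq_univ_of_card
      rw [Finset.card_image_of_injOn hinj, Finset.card_range, hcardG]
    have h1 : c ∈ (Finset.range p).image (fun i => g ^ i) := by rw [himg]; exact Finset.mem_univ _
    obtain ⟨i, -, hi⟩ := Finset.mem_image.1 h1
    exact ⟨i, hi.symm⟩
  -- the character
  have hex : ∀ σ : Ω ≃ₐ[k] Ω, ∃ i : ℕ, ∀ x, e ((g ^ i) x) = σ (e x) := by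
    intro σ
    obtain ⟨c, hc⟩ := exists_restr e σ
    obtain ⟨i, rfl⟩ := hall c
    exact ⟨i, hc⟩
  choose ι hι using hex
  have hinj : ∀ i j : ℕ, (∀ x, e ((g ^ i) x) = e ((g ^ j) x)) → (i : ZMod p) = (j : ZMod p) := by
    intro i j h
    have h1 : g ^ i = g ^ j := AlgEquiv.ext (fun x => e.injective (h x))
    rw [pow_eq_pow_iff_modEq, hord] at h1
    exact (ZMod.natCast_eq_natCast_iff i j p).2 h1
  let χ : (Ω ≃ₐ[k] Ω) → ZMod p := fun σ => (ι σ : ZMod p)
  have hχ : ∀ σ τ, χ (σ * τ) = χ σ + χ τ := by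
    intro σ τ
    have h1 : (ι (σ * τ) : ZMod p) = ((ι σ + ι τ : ℕ) : ZMod p) := by
      apply hinj
      intro x
      rw [hι, AlgEquiv.mul_apply, ← hι τ, ← hι σ, ← AlgEquiv.mul_apply, ← pow_add]
    show (ι (σ * τ) : ZMod p) = (ι σ : ZMod p) + (ι τ : ZMod p)
    rw [h1, Nat.cast_add]
  have hχ0 : ∀ σ, χ σ = 0 ↔ ∀ x, σ (e x) = e x := by
    intro σ
    constructor
    · intro h x
      have h1 : ((ι σ : ℕ) : ZMod p) = 0 := h
      rw [ZMod.natCast_eq_zero_iff, ← hord] at h1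
      rw [← hι, orderOf_dvd_iff_pow_eq_one.1 h1, AlgEquiv.one_apply]
    · intro h
      have h1 : (ι σ : ZMod p) = ((0 : ℕ) : ZMod p) := by
        apply hinj
        intro x
        rw [hι, h, pow_zero, AlgEquiv.one_apply]
      show (ι σ : ZMod p) = 0
      rw [h1, Nat.cast_zero]
  -- the groups
  set G : Subgroup (Ω ≃ₐ[k] Ω) := (k⟮ζ⟯).fixingSubgroup with hG
  set N : Subgroup (Ω ≃ₐ[k] Ω) := (k⟮ζ⟯ ⊔ e.fieldRange).fixingSubgroup with hN
  have hGmem : ∀ σ, σ ∈ G ↔ σ ζ = ζ := by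
    intro σ
    constructor
    · intro h
      exact (IntermediateField.mem_fixingSubgroup_iff _ _).1 h ζ
        (IntermediateField.mem_adjoin_simple_self k ζ)
    · intro h
      have h1 : k⟮ζ⟯ ≤ IntermediateField.fixedField (Subgroup.zpowers σ) := by
        rw [IntermediateField.adjoin_simple_le_iff, IntermediateField.mem_fixedField_iff]
        intro σ' hσ'
        have h3 : Subgroup.zpowers σ ≤ MulAction.stabilizer (Ω ≃ₐ[k] Ω) ζ := by
          rw [Subgroup.zpowers_le]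
          exact h
        exact h3 hσ'
      rw [hG, IntermediateField.mem_fixingSubgroup_iff]
      intro x hx
      exact (IntermediateField.mem_fixedField_iff _ _).1 (h1 hx) _ (Subgroup.mem_zpowers _)
  have hNmem : ∀ σ, σ ∈ N ↔ σ ∈ G ∧ ∀ x, σ (e x) = e x := by
    intro σ
    rw [hN, IntermediateField.fixingSubgroup_sup, Subgroup.mem_inf]
    have h1 : σ ∈ e.fieldRange.fixingSubgroup ↔ ∀ x, σ (e x) = e x := by
      rw [IntermediateField.mem_fixingSubgroup_iff]
      constructor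
      · exact fun h x => h _ ⟨x, rfl⟩
      · rintro h _ ⟨x, rfl⟩
        exact h x
    rw [h1]
  have hfin1 : FiniteDimensional k k⟮ζ⟯ :=
    IntermediateField.adjoin.finiteDimensional (Algebra.IsIntegral.isIntegral ζ)
  have hfin2 : FiniteDimensional k e.fieldRange :=
    LinearEquiv.finiteDimensional (AlgEquiv.ofInjectiveField e).toLinearEquiv
  have hfinL : FiniteDimensional k (k⟮ζ⟯ ⊔ e.fieldRange : IntermediateField k Ω) :=
    IntermediateField.finiteDimensional_sup _ _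
  have hNclosed : IsClosed (N : Set (Ω ≃ₐ[k] Ω)) := IntermediateField.fixingSubgroup_isClosed _
  obtain ⟨θ, hθ0, hθ⟩ := P025H641.kummer_p G N hNclosed χ (fun σ _ τ _ => hχ σ τ) (by
    intro σ
    rw [hNmem, hχ0]) ζ hζ (fun σ hσ => (hGmem σ).1 hσ)
  -- normalise `τ`
  have hχτ₀ : χ τ₀ ≠ 0 := by
    rw [Ne, hχ0]
    push Not
    exact hτ₀e
  set j : ℕ := ((χ τ₀)⁻¹).val with hj
  have hχpow : ∀ n : ℕ, χ (τ₀ ^ n) = n * χ τ₀ := by
    intro n
    induction n with
    | zero =>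
      rw [pow_zero, Nat.cast_zero, zero_mul, hχ0]
      intro x
      rw [AlgEquiv.one_apply]
    | succ n ih => rw [pow_succ, hχ, ih]; push_cast; ring
  have hχτ : χ (τ₀ ^ j) = 1 := by
    rw [hχpow, hj, ZMod.natCast_zmod_val, inv_mul_cancel₀ hχτ₀]
  have hτG : τ₀ ^ j ∈ G := G.pow_mem ((hGmem _).2 hτ₀ζ) _
  refine ⟨τ₀ ^ j, θ, (hGmem _).1 hτG, ?_, hθ0, ?_, ?_, ?_⟩
  · by_contra hcon
    push Not at hcon
    rw [← hχ0, hχτ] at hcon
    exact one_ne_zero hcon
  · rw [hθ _ hτG, hχτ, ZMod.val_one, pow_one]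
  · intro σ hσ
    rw [map_pow, hθ σ ((hGmem σ).2 hσ), mul_pow, ← pow_mul, mul_comm _ p, pow_mul,
      hζ.pow_eq_one, one_pow, one_mul]
  · intro σ hσ
    rw [hθ σ ((hGmem σ).2 hσ), ← hχ0]
    constructor
    · intro h
      have h1 : ζ ^ (χ σ).val = ζ ^ 0 := by
        rw [pow_zero]
        exact mul_right_cancel₀ hθ0 (by rw [h, one_mul])
      have h2 := hζ.pow_inj (ZMod.val_lt (χ σ)) hp.pos h1
      exact (ZMod.val_eq_zero _).1 h2
    · intro h
      rw [h, ZMod.val_zero, pow_zero, one_mul]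

/-- **Descent.** An element of `k` which is a norm from `k₁(ζ)` to `k(ζ)` is a norm from `k₁`. -/
theorem desc {p : ℕ} (hp : p.Prime) (hdeg : Module.finrank k k₁ = p) (e : k₁ →ₐ[k] Ω)
    {ζ : Ω} (hζ : IsPrimitiveRoot ζ p) (τ : Ω ≃ₐ[k] Ω) (hτζ : τ ζ = ζ)
    (hτe : ∃ x, τ (e x) ≠ e x) (z : Ω)
    (hzfix : ∀ σ : Ω ≃ₐ[k] Ω, σ ζ = ζ → (∀ x, σ (e x) = e x) → σ z = z) {b : k} (hb : b ≠ 0)
    (hz : ∏ i ∈ Finset.range p, (τ ^ i) z = algebraMap k Ω b) :
    ∃ z₁ : k₁, Algebra.norm k z₁ = b := by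
  classical
  have hfact : Fact p.Prime := ⟨hp⟩
  have hζint : IsIntegral k ζ := Algebra.IsIntegral.isIntegral ζ
  set L : IntermediateField k Ω := k⟮ζ⟯ ⊔ e.fieldRange with hL
  have hfin1 : FiniteDimensional k k⟮ζ⟯ := IntermediateField.adjoin.finiteDimensional hζint
  have hfin2 : FiniteDimensional k e.fieldRange :=
    LinearEquiv.finiteDimensional (AlgEquiv.ofInjectiveField e).toLinearEquiv
  have hfinL : FiniteDimensional k L := IntermediateField.finiteDimensional_sup _ _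
  have hζL : ζ ∈ L := (le_sup_left : k⟮ζ⟯ ≤ L) (IntermediateField.mem_adjoin_simple_self k ζ)
  have heL : ∀ x, e x ∈ L := fun x => (le_sup_right : e.fieldRange ≤ L) ⟨x, rfl⟩
  -- automorphisms trivial on the generators
  have hgen : ∀ σ : Ω ≃ₐ[k] Ω, σ ζ = ζ → (∀ x, σ (e x) = e x) → ∀ x ∈ L, σ x = x := by
    intro σ h1 h2
    have h3 : L ≤ IntermediateField.fixedField (Subgroup.zpowers σ) := by
      rw [hL, sup_le_iff]
      constructor
      · rw [IntermediateField.adjoin_simple_le_iff, IntermediateField.mem_fixedField_iff]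
        intro σ' hσ'
        have h3 : Subgroup.zpowers σ ≤ MulAction.stabilizer (Ω ≃ₐ[k] Ω) ζ := by
          rw [Subgroup.zpowers_le]
          exact h1
        exact h3 hσ'
      · rintro _ ⟨x, rfl⟩
        rw [IntermediateField.mem_fixedField_iff]
        intro σ' hσ'
        have h3 : Subgroup.zpowers σ ≤ MulAction.stabilizer (Ω ≃ₐ[k] Ω) (e x) := by
          rw [Subgroup.zpowers_le]
          exact h2 x
        exact h3 hσ'
    intro x hx
    exact (IntermediateField.mem_fixedField_iff _ _).1 (h3 hx) _ (Subgroup.mem_zpowers _)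
  -- `L` is Galois
  have hnorm : Normal k L := by
    rw [IntermediateField.normal_iff_forall_map_le']
    intro σ
    rw [IntermediateField.map_le_iff_le_comap, hL, sup_le_iff]
    constructor
    · rw [IntermediateField.adjoin_simple_le_iff]
      have h1 : (σ ζ) ^ p = 1 := by rw [← map_pow, hζ.pow_eq_one, map_one]
      obtain ⟨i, -, hi⟩ := hζ.eq_pow_of_pow_eq_one h1
      show σ ζ ∈ k⟮ζ⟯ ⊔ e.fieldRange
      rw [← hi]
      exact pow_mem hζL i
    · rintro _ ⟨x, rfl⟩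
      obtain ⟨g, hg⟩ := exists_restr e σ
      show σ (e x) ∈ k⟮ζ⟯ ⊔ e.fieldRange
      rw [← hg]
      exact heL _
  have hsep : Algebra.IsSeparable k L := inferInstance
  have hgal : IsGalois k L := ⟨⟩
  -- the data in `L`
  let eL : k₁ →ₐ[k] L := e.codRestrict L.toSubalgebra heL
  have heLc : ∀ x, ((eL x : L) : Ω) = e x := fun _ => rfl
  have hzL : z ∈ L := by
    rw [← InfiniteGalois.fixedField_fixingSubgroup L, IntermediateField.mem_fixedField_iff]
    intro σ hσ
    rw [IntermediateField.mem_fixingSubgroup_iff] at hσ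
    exact hzfix σ (hσ ζ hζL) (fun x => hσ _ (heL x))
  have hζL' : IsPrimitiveRoot (⟨ζ, hζL⟩ : L) p :=
    IsPrimitiveRoot.of_map_of_injective (f := L.val) hζ Subtype.val_injective
  let τL : L ≃ₐ[k] L := τ.restrictNormal L
  have hτL : ∀ x : L, ((τL x : L) : Ω) = τ x := fun x => τ.restrictNormal_commutes L x
  have hτLi : ∀ (i : ℕ) (x : L), (((τL ^ i) x : L) : Ω) = (τ ^ i) x := by
    intro i
    induction i with
    | zero => intro x; rw [pow_zero, pow_zero, AlgEquiv.one_apply, AlgEquiv.one_apply]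
    | succ i ih => intro x; rw [pow_succ, pow_succ, AlgEquiv.mul_apply, AlgEquiv.mul_apply, ih, hτL]
  refine desc_fin hp hdeg eL hζL' ?_ τL ?_ ?_ ⟨z, hzL⟩ hb ?_
  · intro δ h1 h2
    ext x
    have h3 := AlgEquiv.restrictNormalHom_surjective (F := k) (K₁ := L) Ω δ
    obtain ⟨σ, rfl⟩ := h3
    have h4 : ∀ y : L, ((AlgEquiv.restrictNormalHom L σ y : L) : Ω) = σ y := fun y =>
      AlgEquiv.restrictNormal_commutes σ L y
    rw [h4, AlgEquiv.one_apply]
    refine hgen σ ?_ ?_ _ x.2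
    · have h5 := congrArg (fun y : L => (y : Ω)) h2
      simp only [h4] at h5
      exact h5
    · intro y
      have h5 := congrArg (fun y : L => (y : Ω)) (h1 y)
      simp only [h4] at h5
      exact h5
  · apply Subtype.ext
    rw [hτL]
    exact hτζ
  · obtain ⟨x, hx⟩ := hτe
    refine ⟨x, fun h => hx ?_⟩
    have h5 := congrArg (fun y : L => (y : Ω)) h
    simp only [hτL] at h5
    exact h5
  · apply Subtype.ext
    have h1 : ((∏ i ∈ Finset.range p, (τL ^ i) (⟨z, hzL⟩ : L) : L) : Ω) =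
        ∏ i ∈ Finset.range p, (τ ^ i) z := by
      rw [← IntermediateField.coe_val, map_prod]
      refine Finset.prod_congr rfl (fun i _ => ?_)
      exact hτLi i _
    rw [h1, hz]
    rfl

end infinite

end P025H461
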