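import Vale.Agent.P025.H461.NormGal

/-! # The norm criterion -/

open IntermediateField
open P025H641

namespace P025H461

universe u v w z

section pure

variable {k : Type u} {Ω : Type v} {k₁ : Type w} [Field k] [Field Ω] [Field k₁]
  [Algebra k Ω] [Algebra k k₁]

/-- two embeddings of a normal extension differ by an automorphism -/
lemma exists_aut [Normal k k₁] (e f : k₁ →ₐ[k] Ω) : ∃ ρ : Gal(k₁/k), ∀ c, f c = e (ρ c) := by
  let _ : Algebra k₁ Ω := e.toRingHom.toAlgebra
  have ht : IsScalarTower k k₁ Ω := IsScalarTower.of_algebraMap_eq (fun x => (e.commutes x).symm)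
  exact ⟨f.restrictNormal' k₁, fun c => (f.restrictNormal_commutes k₁ c).symm⟩

variable {K : Type v} {K₁ : Type z} {E : Type*} [Field K] [Field K₁] [Field E]
  [Algebra K K₁] [Algebra K E] [Algebra k₁ K₁]

lemma hom_ext (hgen : IntermediateField.adjoin K (Set.range (algebraMap k₁ K₁)) = ⊤)
    (f f' : K₁ →ₐ[K] E) (h : ∀ c, f (algebraMap k₁ K₁ c) = f' (algebraMap k₁ K₁ c)) :
    f = f' := by
  apply AlgHom.ext
  intro x
  have hx : x ∈ IntermediateField.adjoin K (Set.range (algebraMap k₁ K₁)) := by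
    rw [hgen]; trivial
  induction hx using IntermediateField.adjoin_induction with
  | mem x hx =>
    obtain ⟨c, rfl⟩ := hx
    exact h c
  | algebraMap x => rw [AlgHom.commutes, AlgHom.commutes]
  | add x y _ _ hx hy => rw [map_add, map_add, hx, hy]
  | inv x _ hx => rw [map_inv₀, map_inv₀, hx]
  | mul x y _ _ hx hy => rw [map_mul, map_mul, hx, hy]

end pure

/-- **The norm criterion.** -/
theorem norm_criterion {k : Type u} {k₁ : Type w} {K : Type v} {K₁ : Type z} [Field k]
    [CharZero k] [Field k₁] [Field K] [Field K₁] [Algebra k k₁] [Algebra k K] [Algebra K K₁]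
    [Algebra k₁ K₁] [Algebra k K₁] [IsScalarTower k K K₁] [IsScalarTower k k₁ K₁]
    [FiniteDimensional k k₁] [IsGalois k k₁]
    (hgen : IntermediateField.adjoin K (Set.range (algebraMap k₁ K₁)) = ⊤)
    (s : Section k K) {ι : Type*} [Fintype ι] (σ : ι → Gal(K₁/K)) (g : K₁) (h : ι → K₁) (b : k)
    (c : k₁) (m : ℕ) (hm : 0 < m) (hh : ∀ i, h i ≠ 0)
    (hg : Algebra.norm K g = algebraMap k K b) (hdiv : ∀ i, IsDivisible m k (h i))
    (hc : g ^ m * ∏ i, σ i (h i) = algebraMap k₁ K₁ c * ∏ i, h i) :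
    ∃ z₁ : k₁, Algebra.norm k z₁ = b := by
  classical
  have hs := s.isSection
  set t := s.toHom with ht
  have hcharK : CharZero K := charZero_of_injective_algebraMap (algebraMap k K).injective
  have hmk : (m : k) ≠ 0 := by exact_mod_cast hm.ne'
  -- a generator
  obtain ⟨α, hα⟩ := Field.exists_primitive_element k k₁
  have hαint : IsIntegral k α := Algebra.IsIntegral.isIntegral α
  set α' : K₁ := algebraMap k₁ K₁ α with hα'
  have hα'int : IsIntegral k α' := hαint.map (IsScalarTower.toAlgHom k k₁ K₁)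
  have hα'K : IsIntegral K α' := hα'int.tower_top
  have htop : K⟮α'⟯ = ⊤ := by
    rw [← top_le_iff, ← hgen, IntermediateField.adjoin_le_iff]
    rintro _ ⟨c, rfl⟩
    have hc1 : c ∈ k⟮α⟯ := by rw [hα]; trivial
    have hc2 : c ∈ Algebra.adjoin k {α} := by
      rw [← IntermediateField.adjoin_simple_toSubalgebra_of_isAlgebraic hαint.isAlgebraic, hα]
      trivial
    rw [Algebra.adjoin_singleton_eq_range_aeval] at hc2
    obtain ⟨P, rfl⟩ := hc2
    have h1 : algebraMap k₁ K₁ (Polynomial.aeval α P) =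
        Polynomial.aeval α' (P.map (algebraMap k K)) := by
      rw [Polynomial.aeval_map_algebraMap, hα', Polynomial.aeval_algebraMap_apply]
    show algebraMap k₁ K₁ (Polynomial.aeval α P) ∈ K⟮α'⟯
    rw [h1]
    have h2 : Polynomial.aeval α' (P.map (algebraMap k K)) ∈
        Algebra.adjoin K {α'} := by
      rw [Algebra.adjoin_singleton_eq_range_aeval]
      exact ⟨_, rfl⟩
    exact IntermediateField.algebra_adjoin_le_adjoin K {α'} h2
  have hfinK : FiniteDimensional K K₁ := by
    have h1 : FiniteDimensional K K⟮α'⟯ := IntermediateField.adjoin.finiteDimensional hα'K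
    rw [htop] at h1
    exact IntermediateField.topEquiv.toLinearEquiv.finiteDimensional
  have halg : Algebra.IsAlgebraic K K₁ := Algebra.IsAlgebraic.of_finite K K₁
  -- the embedding in the algebraic closure of `K`
  set j : K₁ →ₐ[K] AlgebraicClosure K := IsAlgClosed.lift with hj
  have hjint : ∀ x : K₁, IsIntegral k x → IsIntegral k (j x) := fun x hx =>
    hx.map (j.restrictScalars k)
  set e : k₁ →ₐ[k] constClosure k K :=
    ((j.restrictScalars k).comp (IsScalarTower.toAlgHom k k₁ K₁)).codRestrict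
      (constClosure k K).toSubalgebra (fun x => mem_algebraicClosure_iff.2
        (hjint _ ((Algebra.IsIntegral.isIntegral (R := k) x).map
          (IsScalarTower.toAlgHom k k₁ K₁))).isAlgebraic) with he
  have hecoe : ∀ c : k₁, ((e c : constClosure k K) : AlgebraicClosure K) =
      j (algebraMap k₁ K₁ c) := fun _ => rfl
  -- a finite unramified extension containing the image
  obtain ⟨F, hF, -, hαF⟩ := (isFinUnr_bot (k := k) (K := K)).exists_const (j α') (hjint _ hα'int)
  have hjF : ∀ x : K₁, j x ∈ F := by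
    intro x
    have h1 : K⟮α'⟯ ≤ F.comap j := by
      rw [IntermediateField.adjoin_simple_le_iff]
      exact hαF
    have h2 : x ∈ K⟮α'⟯ := by rw [htop]; trivial
    exact h1 h2
  have hjM : ∀ x : K₁, j x ∈ maxUnr k K := fun x => hF.le_maxUnr (hjF x)
  set J : K₁ →ₐ[K] maxUnr k K := j.codRestrict (maxUnr k K).toSubalgebra hjM with hJ
  have hJcoe : ∀ x, ((J x : maxUnr k K) : AlgebraicClosure K) = j x := fun _ => rfl
  have hJe : ∀ c, J (algebraMap k₁ K₁ c) = cM (e c) := fun c => Subtype.ext rfl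
  -- the action
  have hJact : ∀ (τ : Gal(constClosure k K/k)) (ρ : Gal(k₁/k)) (π : K₁ →ₐ[K] K₁),
      (∀ c, τ (e c) = e (ρ c)) → (∀ c, algebraMap k₁ K₁ (ρ c) = π (algebraMap k₁ K₁ c)) →
      ∀ x, t τ (J x) = J (π x) := by
    intro τ ρ π h1 h2 x
    have h3 : ((t τ : maxUnr k K →ₐ[K] maxUnr k K).comp J) = J.comp π := by
      apply hom_ext hgen
      intro c
      show t τ (J (algebraMap k₁ K₁ c)) = J (π (algebraMap k₁ K₁ c))
      rw [hJe, s_cM hs, h1, ← h2, hJe]
    exact DFunLike.congr_fun h3 x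
  have hJfix : ∀ x, ∀ h ∈ fixS e, t h (J x) = J x := by
    intro x h hh
    exact hJact h 1 (AlgHom.id K K₁) (fun c => (mem_fixS e h).1 hh c) (fun c => rfl) x
  -- lifts
  choose τ hτ using fun ρ : Gal(k₁/k) => exists_lift e ρ
  have hrestr : ∀ i, ∃ ρ : Gal(k₁/k), ∀ c, algebraMap k₁ K₁ (ρ c) = σ i (algebraMap k₁ K₁ c) :=
    fun i => exists_restr (IsScalarTower.toAlgHom k k₁ K₁) ((σ i).restrictScalars k)
  choose ρ' hρ' using hrestr
  have hσact : ∀ i x, t (τ (ρ' i)) (J x) = J (σ i x) := fun i x =>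
    hJact (τ (ρ' i)) (ρ' i) (σ i : K₁ →ₐ[K] K₁) (hτ (ρ' i)) (hρ' i) x
  -- the norm
  have hN : ∏ ρ, t (τ ρ) (J g) = algebraMap k (maxUnr k K) b := by
    have h0 := Algebra.norm_eq_prod_embeddings K (AlgebraicClosure K) g
    rw [hg] at h0
    apply Subtype.ext
    have h1 : ((∏ ρ, t (τ ρ) (J g) : maxUnr k K) : AlgebraicClosure K) =
        ∏ ρ, ((t (τ ρ) (J g) : maxUnr k K) : AlgebraicClosure K) :=
      map_prod (algebraMap (maxUnr k K) (AlgebraicClosure K)) _ _
    rw [h1]
    have h2 : ∏ ρ : Gal(k₁/k), ((t (τ ρ) (J g) : maxUnr k K) : AlgebraicClosure K) =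
        ∏ f : K₁ →ₐ[K] AlgebraicClosure K, f g := by
      refine Fintype.prod_bijective (fun ρ => ((maxUnr k K).val.comp
        (t (τ ρ) : maxUnr k K →ₐ[K] maxUnr k K)).comp J) ⟨?_, ?_⟩ _ _ (fun ρ => rfl)
      · intro ρ ρ' hρρ
        apply AlgEquiv.ext
        intro c
        have h3 := DFunLike.congr_fun hρρ (algebraMap k₁ K₁ c)
        have h4 : t (τ ρ) (J (algebraMap k₁ K₁ c)) = t (τ ρ') (J (algebraMap k₁ K₁ c)) :=
          Subtype.ext h3
        rw [hJe, s_cM hs, s_cM hs, hτ, hτ] at h4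
        exact e.injective (cM_injective h4)
      · intro f
        set f₁ : k₁ →ₐ[k] constClosure k K :=
          ((f.restrictScalars k).comp (IsScalarTower.toAlgHom k k₁ K₁)).codRestrict
            (constClosure k K).toSubalgebra (fun x => mem_algebraicClosure_iff.2
              (((Algebra.IsIntegral.isIntegral (R := k) x).map
                (IsScalarTower.toAlgHom k k₁ K₁)).map (f.restrictScalars k)).isAlgebraic) with hf₁
        obtain ⟨ρ, hρ⟩ := exists_aut e f₁
        refine ⟨ρ, ?_⟩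
        apply hom_ext hgen
        intro c
        show ((t (τ ρ) (J (algebraMap k₁ K₁ c)) : maxUnr k K) : AlgebraicClosure K) =
          f (algebraMap k₁ K₁ c)
        rw [hJe, s_cM hs, hτ, ← hρ]
        rfl
    rw [h2, ← h0]
    rfl
  -- roots
  have hroots : ∀ i, ∃ γ : maxUnr k K, γ ^ m = J (h i) := by
    intro i
    let _ : Algebra K₁ F := (j.codRestrict F.toSubalgebra hjF).toRingHom.toAlgebra
    have hmap : ∀ x : K₁, algebraMap K₁ F x = j.codRestrict F.toSubalgebra hjF x := fun _ => rfl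
    have ht1 : IsScalarTower K K₁ F := IsScalarTower.of_algebraMap_eq (fun x => by
      rw [hmap, AlgHom.commutes]; rfl)
    have ht2 : IsScalarTower k K₁ F := IsScalarTower.of_algebraMap_eq (fun x => by
      rw [IsScalarTower.algebraMap_apply k K F, IsScalarTower.algebraMap_apply k K K₁,
        ← IsScalarTower.algebraMap_apply K K₁ F])
    have hFfin : FiniteDimensional K F := hF.1
    have halg' : Algebra.IsAlgebraic K₁ F := Algebra.IsAlgebraic.tower_top (K := K) K₁
    have hd := (hdiv i).map_algebraMap (E := F)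
    obtain ⟨γ', hγ'⟩ := IsAlgClosed.exists_pow_nat_eq (j (h i)) hm
    obtain ⟨F2, hF2, -, hγF2⟩ := hF.exists_root hmk γ' (algebraMap K₁ F (h i)) hγ' hd
    exact ⟨⟨γ', hF2.le_maxUnr hγF2⟩, Subtype.ext hγ'⟩
  choose γ hγ using hroots
  refine norm_thm_gal hs e τ hτ (fun i => τ (ρ' i)) hm b c (J g) (hJfix g) hN γ ?_ ?_ ?_
  · intro i h0
    have h1 := hγ i
    rw [h0, zero_pow hm.ne'] at h1
    exact hh i ((map_eq_zero J).1 h1.symm)
  · intro i x hx
    rw [hγ i]
    exact hJfix _ x hx
  · have h1 := congrArg J hc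
    rw [map_mul, map_pow, map_prod, map_mul, map_prod, hJe] at h1
    rw [Finset.prod_congr rfl (fun i _ => by rw [hγ i, hσact i]),
      Finset.prod_congr rfl (fun i _ => hγ i)]
    exact h1

end P025H461
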