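import Vale.Agent.P025.H461.NormGal
import Vale.Agent.P025.H16.DivNorm

/-! # Sections and the curves `b y ^ n = N(g(x))`, `k₁ / k` any Galois extension of degree `n` -/

open IntermediateField

namespace P025H461

universe u v w

open Polynomial P025H641 P025H16

/-- the conjugates of a polynomial which is prime to its conjugates -/
lemma coprime_rest {k : Type u} {k₁ : Type v} [Field k] [Field k₁] [Algebra k k₁]
    [Fintype Gal(k₁/k)] [DecidableEq Gal(k₁/k)] (g : k₁[X])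
    (hcop : ∀ ρ : Gal(k₁/k), ρ ≠ 1 → IsCoprime g (g.map (ρ : k₁ →+* k₁))) (ρ : Gal(k₁/k)) :
    IsCoprime (g.map (ρ : k₁ →+* k₁))
      (∏ ρ' ∈ Finset.univ.erase ρ, g.map (ρ' : k₁ →+* k₁)) := by
  apply IsCoprime.prod_right
  intro ρ' hρ'
  have h1 : ρ⁻¹ * ρ' ≠ 1 := by
    intro h
    exact (Finset.mem_erase.1 hρ').1 (inv_mul_eq_one.1 h).symm
  have h2 := (hcop _ h1).map (mapRingHom (ρ : k₁ →+* k₁))
  rw [coe_mapRingHom, Polynomial.map_map] at h2
  have h3 : ((ρ : k₁ →+* k₁).comp ((ρ⁻¹ * ρ' : Gal(k₁/k)) : k₁ →+* k₁)) = (ρ' : k₁ →+* k₁) := by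
    ext c
    show ρ ((ρ⁻¹ * ρ') c) = ρ' c
    rw [← AlgEquiv.mul_apply, mul_inv_cancel_left]
  rw [h3] at h2
  exact h2

/-- **Sections and the curves `b y ^ n = N(g(x))`**, `k₁ / k` any Galois extension of degree `n`,
`g` prime to its conjugates, `n` a divisor of an odd multiple of the degree of `g`: `b` is a norm
from `k₁`. -/
theorem norm_curve_section_gal {k : Type u} {k₁ : Type v} {K : Type w} [Field k] [CharZero k]
    [Field k₁] [Field K] [Algebra k k₁] [Algebra k K] [FiniteDimensional k k₁] [IsGalois k k₁]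
    (n : ℕ) (hn : Module.finrank k k₁ = n) (s : Section k K) (b : k) (f : k[X]) (g : k₁[X])
    (hf : f.map (algebraMap k k₁) = ∏ᶠ σ : Gal(k₁/k), g.map (σ : k₁ →+* k₁))
    (hcop : ∀ σ : Gal(k₁/k), σ ≠ 1 → IsCoprime g (g.map (σ : k₁ →+* k₁)))
    (hpar : ∃ r : ℕ, n ∣ (2 * r + 1) * g.natDegree) (x y : K) (hy : y ≠ 0)
    (h : algebraMap k K b * y ^ n = aeval x f) :
    ∃ z₁ : k₁, Algebra.norm k z₁ = b := by
  classical
  by_cases hb0 : b = 0
  · exact ⟨0, by rw [hb0, Algebra.norm_zero]⟩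
  obtain ⟨r, hr⟩ := hpar
  have hn0 : 0 < n := by rw [← hn]; exact Module.finrank_pos
  have hnk : (n : k) ≠ 0 := by exact_mod_cast hn0.ne'
  have hs := s.isSection
  have hcard : Fintype.card (Gal(k₁/k)) = n := by
    rw [← Nat.card_eq_fintype_card, IsGalois.card_aut_eq_finrank, hn]
  have hΩc : IsAlgClosed (constClosure k K) :=
    (inferInstance : IsAlgClosure k (constClosure k K)).isAlgClosed
  obtain ⟨e⟩ : Nonempty (k₁ →ₐ[k] constClosure k K) := ⟨IsAlgClosed.lift⟩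
  choose τ hτ using fun ρ : Gal(k₁/k) => exists_lift e ρ
  set t := s.toHom with ht
  -- the coefficients
  set ι : k₁ →+* maxUnr k K := cMh.comp (e : k₁ →+* constClosure k K) with hι
  have hιapp : ∀ c, ι c = cM (e c) := fun _ => rfl
  have hιint : ∀ c, IsIntegral k (ι c) := fun c => isIntegral_cM _
  have hιk : ι.comp (algebraMap k k₁) = algebraMap k (maxUnr k K) := by
    refine RingHom.ext (fun c => ?_)
    show cM (e (algebraMap k k₁ c)) = _
    rw [AlgHom.commutes]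
    rfl
  have hact : ∀ (ρ : Gal(k₁/k)) (c : k₁), t (τ ρ) (ι c) = ι (ρ c) := by
    intro ρ c
    rw [hιapp, s_cM hs, hτ, hιapp]
  set xM := algebraMap K (maxUnr k K) x with hxM
  set yM := algebraMap K (maxUnr k K) y with hyM
  have hxfix : ∀ ρ, t ρ xM = xM := fun ρ => AlgEquiv.commutes _ _
  have hyfix : ∀ ρ, t ρ yM = yM := fun ρ => AlgEquiv.commutes _ _
  have heval : ∀ (ρ : Gal(k₁/k)) (q : k₁[X]), t (τ ρ) (eval₂ ι xM q) =
      eval₂ ι xM (q.map (ρ : k₁ →+* k₁)) := by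
    intro ρ q
    rw [eval₂_map, eval₂_eq_sum_range, eval₂_eq_sum_range, map_sum]
    refine Finset.sum_congr rfl (fun j _ => ?_)
    rw [map_mul (t (τ ρ)), map_pow (t (τ ρ)) xM j, hxfix, hact]
    rfl
  have hfixpoly : ∀ ρ ∈ fixS e, ∀ Q : k₁[X], t ρ (eval₂ ι xM Q) = eval₂ ι xM Q := by
    intro ρ hρ Q
    rw [eval₂_eq_sum_range, map_sum]
    refine Finset.sum_congr rfl (fun j _ => ?_)
    have h4 : t ρ (ι (Q.coeff j)) = ι (Q.coeff j) := by
      rw [hιapp, s_cM hs, (mem_fixS e ρ).1 hρ]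
    rw [map_mul (t ρ), map_pow (t ρ) xM j, hxfix, h4]
  -- the products
  have hprod : f.map (algebraMap k k₁) = ∏ ρ : Gal(k₁/k), g.map (ρ : k₁ →+* k₁) := by
    rw [hf, finprod_eq_prod_of_fintype]
  have hfx : eval₂ ι xM (f.map (algebraMap k k₁)) = algebraMap k (maxUnr k K) b * yM ^ n := by
    rw [eval₂_map, hιk]
    have h1 := congrArg (algebraMap K (maxUnr k K)) h
    rw [map_mul, map_pow, ← IsScalarTower.algebraMap_apply, aeval_def, hom_eval₂,
      ← IsScalarTower.algebraMap_eq] at h1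
    exact h1.symm
  have hyM0 : yM ≠ 0 := (_root_.map_ne_zero _).2 hy
  have hbM0 : algebraMap k (maxUnr k K) b ≠ 0 := (_root_.map_ne_zero _).2 hb0
  set U := eval₂ ι xM g with hU
  set W : Gal(k₁/k) → maxUnr k K := fun ρ => eval₂ ι xM (g.map (ρ : k₁ →+* k₁)) with hW
  have hW1 : W 1 = U := by
    simp only [hW]
    congr 1
    exact Polynomial.map_id
  have hNW : ∏ ρ, W ρ = algebraMap k (maxUnr k K) b * yM ^ n := by
    rw [← hfx, hprod, eval₂_finsetProd]
  have hW0 : ∀ ρ, W ρ ≠ 0 := by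
    intro ρ
    have h1 : ∏ ρ, W ρ ≠ 0 := by
      rw [hNW]
      exact mul_ne_zero hbM0 (pow_ne_zero n hyM0)
    exact Finset.prod_ne_zero_iff.1 h1 ρ (Finset.mem_univ ρ)
  have hU0 : U ≠ 0 := by rw [← hW1]; exact hW0 1
  have hg0 : g ≠ 0 := by
    rintro rfl
    rw [hU, eval₂_zero] at hU0
    exact hU0 rfl
  have hmapmap : ∀ ρ ρ' : Gal(k₁/k), (g.map (ρ' : k₁ →+* k₁)).map (ρ : k₁ →+* k₁) =
      g.map ((ρ * ρ' : Gal(k₁/k)) : k₁ →+* k₁) := by
    intro ρ ρ'
    rw [Polynomial.map_map]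
    rfl
  have hactW : ∀ ρ ρ', t (τ ρ) (W ρ') = W (ρ * ρ') := by
    intro ρ ρ'
    simp only [hW]
    rw [heval, hmapmap]
  have hactU : ∀ ρ, t (τ ρ) U = W ρ := by
    intro ρ
    rw [← hW1, hactW, mul_one]
  -- a finite unramified extension containing the coefficients
  obtain ⟨F, hF, hkF⟩ : ∃ F : IntermediateField K (AlgebraicClosure K), IsFinUnr k F ∧
      ∀ c : k₁, ((ι c : maxUnr k K) : AlgebraicClosure K) ∈ F := by
    obtain ⟨α, hα⟩ := Field.exists_primitive_element k k₁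
    obtain ⟨F, hF, -, hαF⟩ := (isFinUnr_bot (k := k) (K := K)).exists_const
      ((ι α : maxUnr k K) : AlgebraicClosure K) (isIntegral_coe.2 (hιint α))
    refine ⟨F, hF, fun c => ?_⟩
    have hc : c ∈ k⟮α⟯ := by rw [hα]; trivial
    have hαint : IsIntegral k α := Algebra.IsIntegral.isIntegral α
    have hc2 : c ∈ Algebra.adjoin k {α} := by
      rw [← IntermediateField.adjoin_simple_toSubalgebra_of_isAlgebraic hαint.isAlgebraic, hα]
      trivial
    rw [Algebra.adjoin_singleton_eq_range_aeval] at hc2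
    obtain ⟨P, rfl⟩ := hc2
    have h1 : ι (aeval α P) = eval₂ (algebraMap k (maxUnr k K)) (ι α) P := by
      rw [aeval_def, hom_eval₂, hιk]
    show ((ι (aeval α P) : maxUnr k K) : AlgebraicClosure K) ∈ F
    rw [h1, eval₂_eq_sum_range]
    have h2 : ((∑ i ∈ Finset.range (P.natDegree + 1),
        algebraMap k (maxUnr k K) (P.coeff i) * ι α ^ i : maxUnr k K) : AlgebraicClosure K) =
        ∑ i ∈ Finset.range (P.natDegree + 1),
          algebraMap K (AlgebraicClosure K) (algebraMap k K (P.coeff i)) *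
            ((ι α : maxUnr k K) : AlgebraicClosure K) ^ i := by
      rw [AddSubmonoidClass.coe_finsetSum]
      rfl
    rw [h2]
    exact sum_mem (fun i _ => mul_mem (F.algebraMap_mem _) (pow_mem hαF i))
  let ιF : k₁ →+* F := ((algebraMap (maxUnr k K) (AlgebraicClosure K)).comp ι).codRestrict
    F.toSubfield.toSubring hkF
  have hιF : ∀ c, ((ιF c : F) : AlgebraicClosure K) = ι c := fun _ => rfl
  have hιFint : ∀ c, IsIntegral k (ιF c) := fun c =>
    (isIntegral_algHom_iff ((F.val).restrictScalars k) (Subtype.val_injective)).1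
      (isIntegral_coe.2 (hιint c))
  set xF := algebraMap K F x with hxF
  set yF := algebraMap K F y with hyF
  have hevF : ∀ P : k₁[X], ((eval₂ ιF xF P : F) : AlgebraicClosure K) = eval₂ ι xM P := by
    intro P
    have h1 := hom_eval₂ P ιF (algebraMap F (AlgebraicClosure K)) xF
    have h2 := hom_eval₂ P ι (algebraMap (maxUnr k K) (AlgebraicClosure K)) xM
    exact h1.trans h2.symm
  have hfF : ∀ P Q : k₁[X], P * Q = f.map (algebraMap k k₁) →
      eval₂ ιF xF P * eval₂ ιF xF Q = algebraMap k F b * yF ^ n := by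
    intro P Q hPQ
    apply Subtype.ext
    have h1 := hevF (P * Q)
    rw [eval₂_mul, hPQ] at h1
    rw [h1, hfx]
    rfl
  have hbF0 : algebraMap k F b ≠ 0 := (_root_.map_ne_zero _).2 hb0
  -- divisibility
  set P : Gal(k₁/k) → k₁[X] := fun ρ => g ^ (r + 1) * (g.map ((ρ⁻¹ : Gal(k₁/k)) : k₁ →+* k₁)) ^ r
    with hP
  have hdiv : ∀ ρ, IsDivisible n k (eval₂ ιF xF (P ρ)) := by
    intro ρ V hV
    have hbv := hV.val_alg (isIntegral_algebraMap : IsIntegral k (algebraMap k F b)) hbF0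
    have hmul : ∀ ρ : Gal(k₁/k), g.map (ρ : k₁ →+* k₁) *
        ∏ ρ' ∈ Finset.univ.erase ρ, g.map (ρ' : k₁ →+* k₁) = f.map (algebraMap k k₁) := by
      intro ρ
      rw [hprod]
      exact Finset.mul_prod_erase _ (fun ρ' : Gal(k₁/k) => g.map (ρ' : k₁ →+* k₁))
        (Finset.mem_univ ρ)
    have hgid : g.map ((1 : Gal(k₁/k)) : k₁ →+* k₁) = g := Polynomial.map_id
    rcases le_or_gt (V.valuation xF) 1 with hx | hx
    · have hval : ∀ ρ : Gal(k₁/k), ∃ c : F,
          V.valuation (eval₂ ιF xF (g.map (ρ : k₁ →+* k₁))) = V.valuation c ^ n := fun ρ =>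
        val_eval_factor ιF hV hιFint _ _ (coprime_rest g hcop ρ) xF _ yF hbv
          (hfF _ _ (hmul ρ)) hx
      obtain ⟨c1, hc1⟩ := hval 1
      obtain ⟨c2, hc2⟩ := hval ρ⁻¹
      rw [hgid] at hc1
      refine ⟨c1 ^ (r + 1) * c2 ^ r, ?_⟩
      simp only [hP]
      rw [eval₂_mul, eval₂_pow, eval₂_pow, map_mul, map_pow, map_pow, hc1, hc2, map_mul, map_pow,
        map_pow, mul_pow, ← pow_mul, ← pow_mul, ← pow_mul, ← pow_mul, mul_comm n, mul_comm n]
    · obtain ⟨q, hq⟩ := hr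
      refine ⟨xF ^ q, ?_⟩
      simp only [hP]
      rw [eval₂_mul, eval₂_pow, eval₂_pow, map_mul, map_pow, map_pow,
        val_eval_pole ιF hV hιFint g hg0 xF hx,
        val_eval_pole ιF hV hιFint _ ((Polynomial.map_ne_zero_iff
          (ρ⁻¹ : Gal(k₁/k)).injective).2 hg0) xF hx, Polynomial.natDegree_map, map_pow, ← pow_mul,
        ← pow_mul, ← pow_add, ← pow_mul]
      congr 1
      calc g.natDegree * (r + 1) + g.natDegree * r = (2 * r + 1) * g.natDegree := by ring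
        _ = q * n := by rw [hq]; ring
  have hroots : ∀ ρ, ∃ γ : maxUnr k K, γ ^ n = eval₂ ι xM (P ρ) := by
    intro ρ
    obtain ⟨γ', hγ'⟩ := IsAlgClosed.exists_pow_nat_eq
      ((eval₂ ιF xF (P ρ) : F) : AlgebraicClosure K) hn0
    obtain ⟨F2, hF2, -, hγF2⟩ := hF.exists_root hnk γ' _ hγ' (hdiv ρ)
    exact ⟨⟨γ', hF2.le_maxUnr hγF2⟩, Subtype.ext (hγ'.trans (hevF _))⟩
  choose γ hγ using hroots
  have hPU : ∀ ρ, eval₂ ι xM (P ρ) = U ^ (r + 1) * W ρ⁻¹ ^ r := by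
    intro ρ
    simp only [hP]
    rw [eval₂_mul, eval₂_pow, eval₂_pow]
  refine norm_thm_gal hs e τ hτ (fun ρ : Gal(k₁/k) => τ ρ) hn0 b (algebraMap k k₁ b) (U / yM)
    ?_ ?_ γ ?_ ?_ ?_
  · intro ρ hρ
    rw [map_div₀, hyfix, hU, hfixpoly ρ hρ g]
  · have h1 : ∀ ρ ∈ (Finset.univ : Finset Gal(k₁/k)), t (τ ρ) (U / yM) = W ρ / yM := fun ρ _ => by
      rw [map_div₀, hyfix, hactU]
    rw [Finset.prod_congr rfl h1, Finset.prod_div_distrib, hNW, Finset.prod_const,
      Finset.card_univ, hcard, mul_div_assoc, div_self (pow_ne_zero n hyM0), mul_one]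
  · intro ρ h0
    have h1 := hγ ρ
    rw [h0, zero_pow hn0.ne', hPU] at h1
    exact mul_ne_zero (pow_ne_zero _ hU0) (pow_ne_zero _ (hW0 _)) h1.symm
  · intro ρ h hh
    rw [hγ ρ, hfixpoly h hh]
  · have h1 : ∀ ρ ∈ (Finset.univ : Finset Gal(k₁/k)), t (τ ρ) (γ ρ ^ n) =
        W ρ ^ (r + 1) * U ^ r := by
      intro ρ _
      rw [hγ ρ, hPU, map_mul, map_pow, map_pow, hactU, hactW, mul_inv_cancel, hW1]
    have h2 : ∀ ρ ∈ (Finset.univ : Finset Gal(k₁/k)), γ ρ ^ n = U ^ (r + 1) * W ρ⁻¹ ^ r :=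
      fun ρ _ => by rw [hγ ρ, hPU]
    have h3 : ∏ ρ : Gal(k₁/k), W ρ⁻¹ = ∏ ρ : Gal(k₁/k), W ρ :=
      Fintype.prod_equiv (Equiv.inv _) _ _ (fun ρ => rfl)
    have h6 : ∏ ρ : Gal(k₁/k), W ρ⁻¹ ^ r = (∏ ρ : Gal(k₁/k), W ρ) ^ r := by
      rw [← h3, ← Finset.prod_pow]
    have h7 : ∏ ρ : Gal(k₁/k), W ρ ^ (r + 1) = (∏ ρ : Gal(k₁/k), W ρ) ^ (r + 1) := by
      rw [← Finset.prod_pow]
    have h4 : cM (e (algebraMap k k₁ b)) = algebraMap k (maxUnr k K) b := by
      rw [AlgHom.commutes]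
      rfl
    rw [Finset.prod_congr rfl h1, Finset.prod_congr rfl h2, Finset.prod_mul_distrib,
      Finset.prod_mul_distrib, h6, h7, Finset.prod_const,
      Finset.prod_const, Finset.card_univ, hcard, hNW, h4, div_pow]
    have h5 : yM ^ n ≠ 0 := pow_ne_zero n hyM0
    field_simp
    ring

end P025H461
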