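import Vale.Agent.P025.H461.Desc

/-! # Descent of norms for the constants of `maxUnr` -/

open IntermediateField Polynomial
open P025H641

namespace P025H461

universe u v w

section sectionM

variable {k : Type u} {K : Type v} [Field k] [Field K] [Algebra k K] [CharZero k]
  {s : Gal(constClosure k K/k) →* Gal(maxUnr k K/K)}
  {k₁ : Type w} [Field k₁] [Algebra k k₁] [FiniteDimensional k k₁] [IsGalois k k₁]

lemma isIntegral_const (c : constClosure k K) : IsIntegral k (c : AlgebraicClosure K) :=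
  (mem_algebraicClosure_iff.1 c.2).isIntegral

/-- a constant as an element of `maxUnr` -/
noncomputable def cM (c : constClosure k K) : maxUnr k K :=
  ⟨c, mem_maxUnr_of_const _ (isIntegral_const c)⟩

lemma cM_coe (c : constClosure k K) : ((cM c : maxUnr k K) : AlgebraicClosure K) = c := rfl

lemma cM_injective : Function.Injective (cM : constClosure k K → maxUnr k K) := by
  intro a b h
  exact Subtype.ext (congrArg (fun x : maxUnr k K => (x : AlgebraicClosure K)) h)

lemma isIntegral_cM (c : constClosure k K) : IsIntegral k (cM c : maxUnr k K) :=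
  isIntegral_coe.1 (isIntegral_const c)

/-- a section acts on the constants as the identity -/
lemma s_cM (hs : IsSection k K s) (σ : Gal(constClosure k K/k)) (c : constClosure k K) :
    s σ (cM c) = cM (σ c) := by
  apply Subtype.ext
  exact (hs.lifts σ c (cM c) rfl).symm

lemma exists_cM (z : maxUnr k K) (hz : IsIntegral k z) : ∃ c : constClosure k K, cM c = z :=
  ⟨⟨z, mem_algebraicClosure_iff.2 (isIntegral_coe.2 hz).isAlgebraic⟩, rfl⟩

lemma cM_mul (a b : constClosure k K) : (cM (a * b) : maxUnr k K) = cM a * cM b := rfl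

lemma cM_pow (a : constClosure k K) (n : ℕ) : (cM (a ^ n) : maxUnr k K) = cM a ^ n := rfl

/-- the constants as a ring homomorphism -/
noncomputable def cMh : constClosure k K →+* maxUnr k K where
  toFun := cM
  map_one' := rfl
  map_mul' _ _ := rfl
  map_zero' := rfl
  map_add' _ _ := rfl

lemma cMh_apply (c : constClosure k K) : (cMh c : maxUnr k K) = cM c := rfl

/-- **Descent of norms**, for a section: all the data attached to a cyclic extension of prime
degree of the base field. -/
theorem exists_data (hs : IsSection k K s) {p : ℕ} [Fact p.Prime]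
    (hdeg : Module.finrank k k₁ = p) (e : k₁ →ₐ[k] constClosure k K) :
    ∃ (ζ θ : maxUnr k K) (τ : Gal(constClosure k K/k)), IsPrimitiveRoot ζ p ∧ IsIntegral k ζ ∧
      IsIntegral k θ ∧ θ ≠ 0 ∧ s τ ζ = ζ ∧ s τ θ = ζ * θ ∧ (∃ x, τ (e x) ≠ e x) ∧
      (∀ σ ∈ stabS s ζ, s σ (θ ^ p) = θ ^ p) ∧
      (∀ σ ∈ stabS s ζ, (s σ θ = θ ↔ ∀ x, σ (e x) = e x)) ∧
      ∀ z : maxUnr k K, IsIntegral k z → (∀ σ ∈ stabS s ζ ⊓ stabS s θ, s σ z = z) →
        ∀ b : k, b ≠ 0 → ∏ i ∈ Finset.range p, s (τ ^ i) z = algebraMap k (maxUnr k K) b →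
          ∃ z₁ : k₁, Algebra.norm k z₁ = b := by
  have hp : p.Prime := Fact.out
  -- a primitive root of unity
  obtain ⟨ζ₀, hζroot⟩ := IsAlgClosed.exists_root (cyclotomic p (AlgebraicClosure K))
    (degree_cyclotomic_pos p _ hp.pos).ne'
  have hcharK : CharZero K := charZero_of_injective_algebraMap (algebraMap k K).injective
  have hnz : NeZero ((p : ℕ) : AlgebraicClosure K) := ⟨by exact_mod_cast hp.ne_zero⟩
  have hζ₀ : IsPrimitiveRoot ζ₀ p := isRoot_cyclotomic_iff.1 hζroot
  have hint₀ : IsIntegral k ζ₀ :=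
    isIntegral_of_pow' hp.pos (by rw [hζ₀.pow_eq_one]; exact isIntegral_one)
  set ζ : constClosure k K := ⟨ζ₀, mem_algebraicClosure_iff.2 hint₀.isAlgebraic⟩ with hζdef
  have hζ : IsPrimitiveRoot ζ p :=
    IsPrimitiveRoot.of_map_of_injective (f := (constClosure k K).val) hζ₀ Subtype.val_injective
  obtain ⟨τ, θ, hτζ, hτe, hθ0, hτθ, hθp, hθ⟩ := exists_theta hdeg e hζ
  have hstab : ∀ (σ : Gal(constClosure k K/k)) (c : constClosure k K),
      σ ∈ stabS s (cM c) ↔ σ c = c := by
    intro σ c
    rw [mem_stabS, s_cM hs]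
    exact cM_injective.eq_iff
  refine ⟨cM ζ, cM θ, τ, ?_, isIntegral_cM ζ, isIntegral_cM θ, ?_, ?_, ?_, hτe, ?_, ?_, ?_⟩
  · exact hζ.map_of_injective (f := cMh) cM_injective
  · intro h
    exact hθ0 (cM_injective h)
  · rw [s_cM hs, hτζ]
  · rw [s_cM hs, hτθ, cM_mul]
  · intro σ hσ
    rw [hstab] at hσ
    rw [← cM_pow, s_cM hs, hθp σ hσ]
  · intro σ hσ
    rw [hstab] at hσ
    rw [← hθ σ hσ, s_cM hs]
    exact cM_injective.eq_iff
  · intro z hz hfix b hb hprod
    obtain ⟨c, rfl⟩ := exists_cM z hz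
    refine desc hp hdeg e hζ τ hτζ hτe c ?_ hb ?_
    · intro σ h1 h2
      have h3 : s σ (cM c) = cM c := hfix σ (by
        rw [Subgroup.mem_inf, hstab, hstab]
        exact ⟨h1, (hθ σ h1).2 h2⟩)
      rw [s_cM hs] at h3
      exact cM_injective h3
    · apply cM_injective
      have h1 : (cM (∏ i ∈ Finset.range p, (τ ^ i) c) : maxUnr k K) =
          ∏ i ∈ Finset.range p, s (τ ^ i) (cM c) := by
        rw [← cMh_apply, map_prod]
        refine Finset.prod_congr rfl (fun i _ => ?_)
        rw [cMh_apply, s_cM hs]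
      rw [h1, hprod]
      rfl

end sectionM

end P025H461
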