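import Vale.Agent.P025.H461.DescM

/-! # Kummer classes attached to divisible elements, without roots of unity -/

open IntermediateField
open P025H641

namespace P025H461

universe u v w

variable {k : Type u} {K : Type v} [Field k] [Field K] [Algebra k K] [CharZero k]
  {s : Gal(constClosure k K/k) →* Gal(maxUnr k K/K)}

/-- **Kummer classes.** If `γ ^ m` is fixed by `s H`, then `γ` is a constant times an element
fixed by `s H`. -/
theorem exists_const_class (hs : IsSection k K s) (H : Subgroup Gal(constClosure k K/k)) {m : ℕ}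
    (hm : 0 < m) (γ : maxUnr k K) (hγ0 : γ ≠ 0) (hγ : ∀ σ ∈ H, s σ (γ ^ m) = γ ^ m) :
    ∃ l : maxUnr k K, l ≠ 0 ∧ IsIntegral k l ∧ ∀ σ ∈ H, s σ (γ / l) = γ / l := by
  classical
  -- a finite normal extension over which `γ` is fixed
  have hnhds : (stabS s γ : Set Gal(constClosure k K/k)) ∈ nhds 1 := by
    have : FiniteDimensional K (IntermediateField.adjoin K {γ}) :=
      IntermediateField.adjoin.finiteDimensional (Algebra.IsIntegral.isIntegral γ)
    have hopen := IntermediateField.fixingSubgroup_isOpen (IntermediateField.adjoin K {γ})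
    have h1 : IsOpen (((IntermediateField.adjoin K {γ}).fixingSubgroup.comap s :
        Subgroup Gal(constClosure k K/k)) : Set Gal(constClosure k K/k)) :=
      hopen.preimage hs.continuous
    have h2 : (IntermediateField.adjoin K {γ}).fixingSubgroup.comap s ≤ stabS s γ := by
      intro σ hσ
      rw [Subgroup.mem_comap, IntermediateField.mem_fixingSubgroup_iff] at hσ
      exact hσ γ (IntermediateField.mem_adjoin_simple_self K γ)
    have h3 : IsOpen (stabS s γ : Set Gal(constClosure k K/k)) := Subgroup.isOpen_mono h2 h1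
    exact h3.mem_nhds (one_mem _)
  obtain ⟨L, hLfin, hLnor, hL⟩ :=
    (krullTopology_mem_nhds_one_iff_of_normal k (constClosure k K) _).1 hnhds
  have hLfix : ∀ σ ∈ L.fixingSubgroup, s σ γ = γ := fun σ hσ => hL hσ
  set r : Gal(constClosure k K/k) →* Gal(L/k) := AlgEquiv.restrictNormalHom L with hr
  have hrapp : ∀ (σ : Gal(constClosure k K/k)) (x : L),
      ((r σ x : L) : constClosure k K) = σ (x : constClosure k K) := fun σ x =>
    AlgEquiv.restrictNormal_commutes σ L x
  have hrker : ∀ σ, r σ = 1 → σ ∈ L.fixingSubgroup := by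
    intro σ hσ
    rw [IntermediateField.mem_fixingSubgroup_iff]
    intro x hx
    have h1 := hrapp σ ⟨x, hx⟩
    rw [hσ, AlgEquiv.one_apply] at h1
    exact h1.symm
  -- elements fixed by `s` over `L`
  have key : ∀ (x : L) (σ σ' : Gal(constClosure k K/k)), r σ = r σ' →
      s σ (cM (x : constClosure k K) * γ) = s σ' (cM (x : constClosure k K) * γ) := by
    intro x σ σ' h
    have h1 : σ'⁻¹ * σ ∈ L.fixingSubgroup := by
      apply hrker
      rw [map_mul, map_inv, h, inv_mul_cancel]
    have h2 : s (σ'⁻¹ * σ) (cM (x : constClosure k K) * γ) = cM (x : constClosure k K) * γ := by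
      rw [map_mul (s (σ'⁻¹ * σ)), hLfix _ h1, s_cM hs,
        (IntermediateField.mem_fixingSubgroup_iff _ _).1 h1 x x.2]
    have h3 : s σ = s σ' * s (σ'⁻¹ * σ) := by rw [← map_mul, mul_inv_cancel_left]
    rw [h3, AlgEquiv.mul_apply, h2]
  -- representatives
  set Q : Subgroup Gal(L/k) := H.map r with hQ
  have hex : ∀ ρ : Q, ∃ σ : Gal(constClosure k K/k), σ ∈ H ∧ r σ = ρ := fun ρ =>
    Subgroup.mem_map.1 ρ.2
  choose pick hpickH hpick using hex
  have hfinQ : Fintype Q := Fintype.ofFinite Q
  set v : L → maxUnr k K := fun x => ∑ ρ : Q, s (pick ρ) (cM (x : constClosure k K) * γ) with hv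
  have hvH : ∀ x, ∀ σ ∈ H, s σ (v x) = v x := by
    intro x σ hσ
    have hσQ : r σ ∈ Q := Subgroup.mem_map_of_mem r hσ
    simp only [hv]
    rw [map_sum]
    refine Fintype.sum_equiv (Equiv.mulLeft (⟨r σ, hσQ⟩ : Q)) _ _ (fun ρ => ?_)
    rw [← AlgEquiv.mul_apply, ← map_mul]
    apply key
    rw [map_mul, hpick, hpick]
    rfl
  have hvγ : ∀ x, v x = ∑ ρ : Q, s (pick ρ) γ * cM ((ρ : Gal(L/k)) x : constClosure k K) := by
    intro x
    simp only [hv]
    refine Finset.sum_congr rfl (fun ρ _ => ?_)
    rw [map_mul (s (pick ρ)), s_cM hs, ← hrapp, hpick, mul_comm]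
  have hne : ∃ x, v x ≠ 0 := by
    by_contra hcon
    push Not at hcon
    have hli := linearIndependent_monoidHom L (maxUnr k K)
    set φ : Q → (L →* maxUnr k K) := fun ρ =>
      ((cMh : constClosure k K →+* maxUnr k K).toMonoidHom.comp
        (L.val : L →* constClosure k K)).comp ((ρ : Gal(L/k)) : L →* L) with hφ
    have hφapp : ∀ (ρ : Q) (x : L), φ ρ x = cM ((ρ : Gal(L/k)) x : constClosure k K) :=
      fun _ _ => rfl
    have hφinj : Function.Injective φ := by
      intro ρ ρ' h
      apply Subtype.ext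
      apply AlgEquiv.ext
      intro x
      have h1 := DFunLike.congr_fun h x
      rw [hφapp, hφapp] at h1
      exact Subtype.ext (cM_injective h1)
    have hli2 := hli.comp φ hφinj
    rw [Fintype.linearIndependent_iff] at hli2
    have h1 := hli2 (fun ρ => s (pick ρ) γ) (by
      funext x
      rw [Finset.sum_apply]
      have h2 := hcon x
      rw [hvγ] at h2
      exact h2) 1
    rw [EmbeddingLike.map_eq_zero_iff] at h1
    exact hγ0 h1
  obtain ⟨x, hx⟩ := hne
  have hroot : ∀ σ ∈ H, IsIntegral k (s σ γ / γ) := by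
    intro σ hσ
    apply isIntegral_of_pow' hm
    rw [div_pow, ← map_pow, hγ σ hσ, div_self (pow_ne_zero m hγ0)]
    exact isIntegral_one
  have hint : IsIntegral k (v x / γ) := by
    rw [hvγ, Finset.sum_div]
    refine IsIntegral.sum _ (fun ρ _ => ?_)
    rw [mul_div_right_comm]
    exact (hroot _ (hpickH ρ)).mul (isIntegral_cM _)
  refine ⟨γ / v x, div_ne_zero hγ0 hx, ?_, ?_⟩
  · rw [← inv_div]
    exact hint.inv
  · intro σ hσ
    rw [div_div_cancel₀ hγ0]
    exact hvH x σ hσ

end P025H461
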