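import Vale.Agent.P025.H461.KumClass

/-! # The norm theorem for a finite Galois extension of the constants -/

open IntermediateField
open P025H641

namespace P025H461

universe u v w

variable {k : Type u} {K : Type v} [Field k] [Field K] [Algebra k K] [CharZero k]
  {s : Gal(constClosure k K/k) →* Gal(maxUnr k K/K)}
  {k₁ : Type w} [Field k₁] [Algebra k k₁]

/-- the automorphisms fixing `e k₁` -/
noncomputable def fixS (e : k₁ →ₐ[k] constClosure k K) : Subgroup Gal(constClosure k K/k) :=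
  e.fieldRange.fixingSubgroup

omit [CharZero k] in
lemma mem_fixS (e : k₁ →ₐ[k] constClosure k K) (σ : Gal(constClosure k K/k)) :
    σ ∈ fixS e ↔ ∀ c, σ (e c) = e c := by
  rw [fixS, IntermediateField.mem_fixingSubgroup_iff]
  constructor
  · intro h c
    exact h _ ⟨c, rfl⟩
  · rintro h _ ⟨c, rfl⟩
    exact h c

/-- lifts of automorphisms -/
lemma exists_lift [Normal k k₁] (e : k₁ →ₐ[k] constClosure k K) (ρ : Gal(k₁/k)) :
    ∃ τ : Gal(constClosure k K/k), ∀ c, τ (e c) = e (ρ c) := by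
  let _ : Algebra k₁ (constClosure k K) := e.toRingHom.toAlgebra
  have ht : IsScalarTower k k₁ (constClosure k K) :=
    IsScalarTower.of_algebraMap_eq (fun x => (e.commutes x).symm)
  exact ⟨ρ.liftNormal (constClosure k K), fun c => ρ.liftNormal_commutes (constClosure k K) c⟩

section

variable (e : k₁ →ₐ[k] constClosure k K)

omit [CharZero k] in
/-- conjugates of fixed elements are fixed -/
lemma conj_fixed [Normal k k₁] (σ : Gal(constClosure k K/k)) {x : maxUnr k K}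
    (hx : ∀ h ∈ fixS e, s h x = x) : ∀ h ∈ fixS e, s h (s σ x) = s σ x := by
  intro h hh
  obtain ⟨g, hg⟩ := exists_restr e σ
  have h1 : σ⁻¹ * h * σ ∈ fixS e := by
    rw [mem_fixS]
    intro c
    rw [AlgEquiv.mul_apply, AlgEquiv.mul_apply, ← hg, (mem_fixS e h).1 hh, hg,
      ← AlgEquiv.mul_apply, inv_mul_cancel, AlgEquiv.one_apply]
  have h2 : h * σ = σ * (σ⁻¹ * h * σ) := by group
  rw [← AlgEquiv.mul_apply, ← map_mul, h2, map_mul, AlgEquiv.mul_apply, hx _ h1]

omit [CharZero k] in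
/-- the action on fixed elements depends on the restriction to `k₁` only -/
lemma act_eq {σ σ' : Gal(constClosure k K/k)} (h : ∀ c, σ (e c) = σ' (e c)) {x : maxUnr k K}
    (hx : ∀ h ∈ fixS e, s h x = x) : s σ x = s σ' x := by
  have h1 : σ'⁻¹ * σ ∈ fixS e := by
    rw [mem_fixS]
    intro c
    rw [AlgEquiv.mul_apply, h, ← AlgEquiv.mul_apply, inv_mul_cancel, AlgEquiv.one_apply]
  have h3 : s σ = s σ' * s (σ'⁻¹ * σ) := by rw [← map_mul, mul_inv_cancel_left]
  rw [h3, AlgEquiv.mul_apply, hx _ h1]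

omit [CharZero k] in
/-- norms of conjugates -/
lemma norm_conj [Normal k k₁] [Fintype Gal(k₁/k)] {τ : Gal(k₁/k) → Gal(constClosure k K/k)}
    (hτ : ∀ ρ c, τ ρ (e c) = e (ρ c)) (σ : Gal(constClosure k K/k)) {x : maxUnr k K}
    (hx : ∀ h ∈ fixS e, s h x = x) : ∏ ρ, s (τ ρ) (s σ x) = ∏ ρ, s (τ ρ) x := by
  obtain ⟨g, hg⟩ := exists_restr e σ
  refine Fintype.prod_equiv (Equiv.mulRight g) _ _ (fun ρ => ?_)
  rw [← AlgEquiv.mul_apply, ← map_mul]
  apply act_eq e _ hx
  intro c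
  rw [AlgEquiv.mul_apply, ← hg, hτ, Equiv.coe_mulRight, hτ, AlgEquiv.mul_apply]

/-- constants fixed by `fixS e` come from `k₁` -/
lemma exists_of_const (hs : IsSection k K s) {x : maxUnr k K} (hint : IsIntegral k x)
    (hx : ∀ h ∈ fixS e, s h x = x) : ∃ c : k₁, cM (e c) = x := by
  obtain ⟨z, rfl⟩ := exists_cM x hint
  have h1 : z ∈ fixedField (fixS e) := by
    rw [IntermediateField.mem_fixedField_iff]
    intro h hh
    have h2 := hx h hh
    rw [s_cM hs] at h2
    exact cM_injective h2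
  rw [fixS, InfiniteGalois.fixedField_fixingSubgroup] at h1
  obtain ⟨c, hc⟩ := h1
  exact ⟨c, congrArg cM hc⟩

/-- the norm of a constant -/
lemma norm_const [FiniteDimensional k k₁] [IsGalois k k₁] [Fintype Gal(k₁/k)]
    (hs : IsSection k K s) {τ : Gal(k₁/k) → Gal(constClosure k K/k)}
    (hτ : ∀ ρ c, τ ρ (e c) = e (ρ c)) (c : k₁) :
    ∏ ρ, s (τ ρ) (cM (e c)) = algebraMap k (maxUnr k K) (Algebra.norm k c) := by
  have h1 : ∀ ρ ∈ (Finset.univ : Finset Gal(k₁/k)),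
      s (τ ρ) (cM (e c)) = (cMh.comp (e : k₁ →+* constClosure k K)) (ρ c) := by
    intro ρ _
    rw [s_cM hs, hτ]
    rfl
  have h2 : ∏ ρ : Gal(k₁/k), ρ c = algebraMap k k₁ (Algebra.norm k c) := by
    rw [Algebra.norm_eq_prod_automorphisms]
    exact Finset.prod_congr (by ext; simp) (fun _ _ => rfl)
  rw [Finset.prod_congr rfl h1, ← map_prod, h2]
  show cM (e (algebraMap k k₁ _)) = _
  rw [AlgHom.commutes]
  rfl

end

/-- **The norm theorem.** -/
theorem norm_thm_gal [FiniteDimensional k k₁] [IsGalois k k₁] [Fintype Gal(k₁/k)]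
    (hs : IsSection k K s) (e : k₁ →ₐ[k] constClosure k K)
    (τ : Gal(k₁/k) → Gal(constClosure k K/k)) (hτ : ∀ ρ c, τ ρ (e c) = e (ρ c)) {ι : Type*}
    [Fintype ι] (σ : ι → Gal(constClosure k K/k)) {m : ℕ} (hm : 0 < m) (b : k) (c : k₁)
    (u : maxUnr k K) (hu : ∀ h ∈ fixS e, s h u = u)
    (hN : ∏ ρ, s (τ ρ) u = algebraMap k (maxUnr k K) b) (γ : ι → maxUnr k K)
    (hγ0 : ∀ i, γ i ≠ 0) (hγ : ∀ i, ∀ h ∈ fixS e, s h (γ i ^ m) = γ i ^ m)
    (heq : u ^ m * ∏ i, s (σ i) (γ i ^ m) = cM (e c) * ∏ i, γ i ^ m) :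
    ∃ z₁ : k₁, Algebra.norm k z₁ = b := by
  classical
  choose l hl0 hlint hl using fun i => exists_const_class hs (fixS e) hm (γ i) (hγ0 i) (hγ i)
  set v : ι → maxUnr k K := fun i => γ i / l i with hv
  have hv0 : ∀ i, v i ≠ 0 := fun i => div_ne_zero (hγ0 i) (hl0 i)
  have hvH : ∀ i, ∀ h ∈ fixS e, s h (v i) = v i := hl
  have hsv0 : ∀ i, s (σ i) (v i) ≠ 0 := fun i => by
    rw [Ne, EmbeddingLike.map_eq_zero_iff]
    exact hv0 i
  have hsl0 : ∀ i, s (σ i) (l i) ≠ 0 := fun i => by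
    rw [Ne, EmbeddingLike.map_eq_zero_iff]
    exact hl0 i
  have hPv : ∏ i, v i ≠ 0 := Finset.prod_ne_zero_iff.2 (fun i _ => hv0 i)
  have hPsv : ∏ i, s (σ i) (v i) ≠ 0 := Finset.prod_ne_zero_iff.2 (fun i _ => hsv0 i)
  set w := u * (∏ i, s (σ i) (v i)) / ∏ i, v i with hw
  have hγv : ∀ i, γ i = v i * l i := fun i => by
    simp only [hv]
    rw [div_mul_cancel₀ _ (hl0 i)]
  -- the power of `w`
  have hwm : w ^ m * ∏ i, s (σ i) (l i ^ m) = cM (e c) * ∏ i, l i ^ m := by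
    have h1 : ∏ i, γ i ^ m = (∏ i, v i) ^ m * ∏ i, l i ^ m := by
      rw [← Finset.prod_pow, ← Finset.prod_mul_distrib]
      exact Finset.prod_congr rfl (fun i _ => by rw [hγv i, mul_pow])
    have h2 : ∏ i, s (σ i) (γ i ^ m) = (∏ i, s (σ i) (v i)) ^ m * ∏ i, s (σ i) (l i ^ m) := by
      rw [← Finset.prod_pow, ← Finset.prod_mul_distrib]
      exact Finset.prod_congr rfl (fun i _ => by rw [hγv i, mul_pow, map_mul, map_pow])
    rw [h1, h2] at heq
    have h3 : w ^ m * (∏ i, v i) ^ m = u ^ m * (∏ i, s (σ i) (v i)) ^ m := by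
      rw [← mul_pow, hw, div_mul_cancel₀ _ hPv, mul_pow]
    have h4 : (∏ i, v i) ^ m ≠ 0 := pow_ne_zero m hPv
    apply mul_left_cancel₀ h4
    calc (∏ i, v i) ^ m * (w ^ m * ∏ i, s (σ i) (l i ^ m))
        = (w ^ m * (∏ i, v i) ^ m) * ∏ i, s (σ i) (l i ^ m) := by ring
      _ = u ^ m * ((∏ i, s (σ i) (v i)) ^ m * ∏ i, s (σ i) (l i ^ m)) := by rw [h3]; ring
      _ = (∏ i, v i) ^ m * (cM (e c) * ∏ i, l i ^ m) := by rw [heq]; ring
  have hsint : ∀ (σ : Gal(maxUnr k K/K)) (x : maxUnr k K), IsIntegral k x → IsIntegral k (σ x) :=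
    fun σ x hx => hx.map ((σ : maxUnr k K →ₐ[K] maxUnr k K).restrictScalars k)
  have hwint : IsIntegral k w := by
    apply isIntegral_of_pow' hm
    have h1 : ∏ i, s (σ i) (l i ^ m) ≠ 0 := by
      apply Finset.prod_ne_zero_iff.2
      intro i _
      rw [map_pow]
      exact pow_ne_zero m (hsl0 i)
    have h2 : w ^ m = cM (e c) * (∏ i, l i ^ m) * (∏ i, s (σ i) (l i ^ m))⁻¹ := by
      rw [← hwm, mul_inv_cancel_right₀ h1]
    rw [h2]
    exact ((isIntegral_cM _).mul (IsIntegral.prod _ (fun i _ => (hlint i).pow m))).mul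
      (IsIntegral.prod _ (fun i _ => hsint _ _ ((hlint i).pow m))).inv
  have hwH : ∀ h ∈ fixS e, s h w = w := by
    intro h hh
    rw [hw, map_div₀, map_mul, map_prod, map_prod, hu h hh]
    congr 1
    · congr 1
      exact Finset.prod_congr rfl (fun i _ => conj_fixed e (σ i) (hvH i) h hh)
    · exact Finset.prod_congr rfl (fun i _ => hvH i h hh)
  obtain ⟨z, hz⟩ := exists_of_const e hs hwint hwH
  refine ⟨z, ?_⟩
  -- the norm of `w`
  have hNw : ∏ ρ, s (τ ρ) w = algebraMap k (maxUnr k K) b := by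
    have h1 : ∀ ρ ∈ (Finset.univ : Finset Gal(k₁/k)), s (τ ρ) w =
        s (τ ρ) u * (∏ i, s (τ ρ) (s (σ i) (v i))) / ∏ i, s (τ ρ) (v i) := by
      intro ρ _
      rw [hw, map_div₀, map_mul, map_prod, map_prod]
    rw [Finset.prod_congr rfl h1, Finset.prod_div_distrib, Finset.prod_mul_distrib, hN,
      Finset.prod_comm, Finset.prod_comm (f := fun ρ i => s (τ ρ) (v i)),
      Finset.prod_congr rfl (fun i _ => norm_conj e hτ (σ i) (hvH i)), mul_div_assoc, div_self,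
      mul_one]
    apply Finset.prod_ne_zero_iff.2
    intro i _
    apply Finset.prod_ne_zero_iff.2
    intro ρ _
    rw [Ne, EmbeddingLike.map_eq_zero_iff]
    exact hv0 i
  apply (algebraMap k (maxUnr k K)).injective
  rw [← norm_const e hs hτ, hz, hNw]

end P025H461
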