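import Mathlib

/-! # Norms of radicals in cyclic extensions of odd degree -/

open Finset

namespace P025H461

section nt

/-- `(c - 1) S = A - n` -/
lemma geom_id (c : ℤ) (n : ℕ) :
    (c - 1) * ∑ i ∈ range n, ∑ j ∈ range i, c ^ j = ∑ j ∈ range n, c ^ j - n := by
  induction n with
  | zero => simp
  | succ n ih =>
    rw [sum_range_succ, mul_add, ih, sum_range_succ (fun j => c ^ j) n, mul_geom_sum]
    push_cast
    ring

lemma geom_choose (x : ℤ) (n : ℕ) :
    ∑ j ∈ range n, (x + 1) ^ j = ∑ r ∈ range n, (n.choose (r + 1) : ℤ) * x ^ r := by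
  induction n with
  | zero => simp
  | succ n ih =>
    rw [sum_range_succ, ih]
    have h1 : ∑ r ∈ range (n + 1), ((n + 1).choose (r + 1) : ℤ) * x ^ r =
        ∑ r ∈ range (n + 1), (n.choose r : ℤ) * x ^ r +
          ∑ r ∈ range (n + 1), (n.choose (r + 1) : ℤ) * x ^ r := by
      rw [← sum_add_distrib]
      refine sum_congr rfl (fun r _ => ?_)
      rw [Nat.choose_succ_succ]
      push_cast
      ring
    rw [h1, sum_range_succ (fun r => (n.choose (r + 1) : ℤ) * x ^ r) n, Nat.choose_succ_self,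
      Nat.cast_zero, zero_mul, add_zero, add_comm, add_pow]
    congr 1
    refine sum_congr rfl (fun r _ => ?_)
    rw [one_pow, mul_one, mul_comm]

lemma sum_choose (x : ℤ) (n : ℕ) :
    ∑ i ∈ range n, ∑ j ∈ range i, (x + 1) ^ j =
      ∑ r ∈ range n, (n.choose (r + 2) : ℤ) * x ^ r := by
  induction n with
  | zero => simp
  | succ n ih =>
    rw [sum_range_succ, ih, geom_choose]
    have h1 : ∑ r ∈ range (n + 1), ((n + 1).choose (r + 2) : ℤ) * x ^ r =
        ∑ r ∈ range (n + 1), (n.choose (r + 1) : ℤ) * x ^ r +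
          ∑ r ∈ range (n + 1), (n.choose (r + 2) : ℤ) * x ^ r := by
      rw [← sum_add_distrib]
      refine sum_congr rfl (fun r _ => ?_)
      rw [Nat.choose_succ_succ]
      push_cast
      ring
    rw [h1, sum_range_succ (fun r => (n.choose (r + 1) : ℤ) * x ^ r) n,
      sum_range_succ (fun r => (n.choose (r + 2) : ℤ) * x ^ r) n, Nat.choose_succ_self,
      Nat.choose_eq_zero_of_lt (by omega : n < n + 2), Nat.cast_zero, zero_mul, add_zero, add_zero,
      add_comm]

/-- divisibility of the terms -/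
lemma term_dvd {l : ℕ} (hl : l.Prime) (hl3 : 3 ≤ l) {e n : ℕ} (hn : l ^ e ∣ n) {x : ℤ}
    (hx : (l : ℤ) ∣ x) (r : ℕ) : ((l : ℤ) ^ e) ∣ (n.choose (r + 2) : ℤ) * x ^ r := by
  rcases Nat.eq_zero_or_pos n with rfl | hn0
  · simp
  obtain ⟨m, rfl⟩ : ∃ m, n = m + 1 := ⟨n - 1, by omega⟩
  obtain ⟨v, r', hr', hrv⟩ := Nat.exists_eq_pow_mul_and_not_dvd (n := r + 2) (by omega) l hl.ne_one
  have h1 : l ^ e ∣ (m + 1).choose (r + 2) * (r + 2) := by
    have h2 := Nat.add_one_mul_choose_eq m (r + 1)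
    have h3 : (m + 1).choose (r + 2) * (r + 2) = (m + 1) * m.choose (r + 1) := h2.symm
    rw [h3]
    exact Dvd.dvd.mul_right hn _
  have h2 : l ^ e ∣ (m + 1).choose (r + 2) * l ^ v := by
    have h3 : (m + 1).choose (r + 2) * (r + 2) = (m + 1).choose (r + 2) * l ^ v * r' := by
      rw [mul_assoc, ← hrv]
    rw [h3] at h1
    exact Nat.Coprime.dvd_of_dvd_mul_right
      (Nat.Coprime.pow_left e ((Nat.Prime.coprime_iff_not_dvd hl).2 hr')) h1
  have hv : v ≤ r := by
    by_contra hcon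
    push Not at hcon
    have h3 : l ^ v ≤ r + 2 := Nat.le_of_dvd (by omega) ⟨r', hrv⟩
    have h4 : 3 ^ (r + 1) ≤ l ^ v :=
      (Nat.pow_le_pow_left hl3 _).trans (Nat.pow_le_pow_right (by omega) hcon)
    have h5 : ∀ t : ℕ, 2 * t + 1 ≤ 3 ^ t := by
      intro t
      induction t with
      | zero => simp
      | succ t ih => rw [pow_succ]; omega
    have h6 := h5 (r + 1)
    omega
  have h3 : (l : ℤ) ^ v ∣ x ^ r := (pow_dvd_pow _ hv).trans (pow_dvd_pow_of_dvd hx r)
  obtain ⟨y, hy⟩ := h3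
  have h4 : ((l : ℤ) ^ e) ∣ ((m + 1).choose (r + 2) : ℤ) * (l : ℤ) ^ v := by
    exact_mod_cast h2
  rw [hy, ← mul_assoc]
  exact Dvd.dvd.mul_right h4 _

/-- the divisibility of the exponent -/
lemma exp_dvd {d n c : ℕ} (hd : Odd d) (hdn : d ∣ n) (hA : d ∣ ∑ j ∈ range n, c ^ j) :
    d ∣ ∑ i ∈ range n, ∑ j ∈ range i, c ^ j := by
  rw [Nat.dvd_iff_prime_pow_dvd_dvd]
  intro l e hl hle
  rcases Nat.eq_zero_or_pos e with rfl | he
  · simp
  have hl3 : 3 ≤ l := by
    have h1 : l ≠ 2 := by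
      rintro rfl
      have h2 : 2 ∣ d := (dvd_pow_self 2 he.ne').trans hle
      rw [← Nat.not_even_iff_odd] at hd
      exact hd (even_iff_two_dvd.2 h2)
    have h2 := hl.two_le
    omega
  have hn : l ^ e ∣ n := hle.trans hdn
  have hA' : l ^ e ∣ ∑ j ∈ range n, c ^ j := hle.trans hA
  have key : ((l : ℤ) ^ e) ∣ ∑ i ∈ range n, ∑ j ∈ range i, (c : ℤ) ^ j := by
    by_cases hx : (l : ℤ) ∣ (c : ℤ) - 1
    · have h1 := sum_choose ((c : ℤ) - 1) n
      rw [sub_add_cancel] at h1
      rw [h1]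
      exact dvd_sum (fun r _ => term_dvd hl hl3 hn hx r)
    · have h1 : ((l : ℤ) ^ e) ∣ ((c : ℤ) - 1) * ∑ i ∈ range n, ∑ j ∈ range i, (c : ℤ) ^ j := by
        rw [geom_id]
        refine dvd_sub ?_ ?_
        · exact_mod_cast hA'
        · exact_mod_cast hn
      have h2 : IsCoprime ((l : ℤ) ^ e) ((c : ℤ) - 1) := by
        apply IsCoprime.pow_left
        rw [Prime.coprime_iff_not_dvd (Nat.prime_iff_prime_int.1 hl)]
        exact hx
      exact h2.dvd_of_dvd_mul_left h1
  exact_mod_cast key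

end nt

section norm

universe u v

/-- the product over a cyclic group -/
lemma prod_gen {C : Type*} [Group C] [Fintype C] {n : ℕ} (hC : Fintype.card C = n) {g : C}
    (hg : orderOf g = n) {M : Type*} [CommMonoid M] (f : C → M) :
    ∏ i ∈ range n, f (g ^ i) = ∏ c : C, f c := by
  classical
  have hinj : Set.InjOn (fun i => g ^ i) (range n : Set ℕ) := by
    intro i hi j hj hij
    rw [coe_range, Set.mem_Iio, ← hg] at hi hj
    exact pow_injOn_Iio_orderOf hi hj hij
  have himg : (range n).image (fun i => g ^ i) = univ := by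
    apply eq_univ_of_card
    rw [card_image_of_injOn hinj, card_range, hC]
  rw [← himg, prod_image hinj]

/-- **Norms of radicals.** In a cyclic extension of odd degree `n`, an element whose `n`-th power
lies in the base has norm equal to this power. -/
theorem norm_of_pow {k : Type u} {k₁ : Type v} [Field k] [CharZero k] [Field k₁] [Algebra k k₁]
    [FiniteDimensional k k₁] [IsGalois k k₁] [IsCyclic Gal(k₁/k)] (n : ℕ)
    (hn : Module.finrank k k₁ = n) (hodd : Odd n) (q : k₁) (a : k)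
    (hq : q ^ n = algebraMap k k₁ a) : Algebra.norm k q = a := by
  classical
  have hn0 : 0 < n := hodd.pos
  by_cases hq0 : q = 0
  · subst hq0
    rw [zero_pow hn0.ne'] at hq
    have h1 : a = 0 := (algebraMap k k₁).injective (by rw [← hq, map_zero])
    rw [h1, Algebra.norm_zero]
  have hcard : Nat.card Gal(k₁/k) = n := by rw [IsGalois.card_aut_eq_finrank, hn]
  obtain ⟨σ, hσ⟩ := IsCyclic.exists_generator (α := Gal(k₁/k))
  have hord : orderOf σ = n := by rw [orderOf_eq_card_of_forall_mem_zpowers hσ, hcard]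
  set ξ : k₁ := σ q / q with hξ
  have hσq : σ q = q * ξ := by rw [hξ, mul_div_cancel₀ _ hq0]
  have hξn : ξ ^ n = 1 := by
    rw [hξ, div_pow, ← map_pow, hq, AlgEquiv.commutes, ← hq, div_self (pow_ne_zero _ hq0)]
  have hξ0 : ξ ≠ 0 := by
    intro h
    rw [h, zero_pow hn0.ne'] at hξn
    exact zero_ne_one hξn
  set d := orderOf ξ with hd
  have hdn : d ∣ n := orderOf_dvd_of_pow_eq_one hξn
  have hdpos : 0 < d := Nat.pos_of_dvd_of_pos hdn hn0
  have hprim : IsPrimitiveRoot ξ d := IsPrimitiveRoot.orderOf ξ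
  have hnz : NeZero d := ⟨hdpos.ne'⟩
  obtain ⟨c, -, hc⟩ := hprim.eq_pow_of_pow_eq_one (ξ := σ ξ) (by
    rw [← map_pow, hprim.pow_eq_one, map_one])
  have hσi : ∀ i : ℕ, (σ ^ i) ξ = ξ ^ (c ^ i) := by
    intro i
    induction i with
    | zero => rw [pow_zero, pow_zero, pow_one, AlgEquiv.one_apply]
    | succ i ih => rw [pow_succ, AlgEquiv.mul_apply, ← hc, map_pow, ih, ← pow_mul, pow_succ]
  have hσqi : ∀ i : ℕ, (σ ^ i) q = q * ξ ^ (∑ j ∈ range i, c ^ j) := by
    intro i
    induction i with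
    | zero => rw [pow_zero, AlgEquiv.one_apply, range_zero, sum_empty, pow_zero, mul_one]
    | succ i ih =>
      rw [pow_succ, AlgEquiv.mul_apply, hσq, map_mul, ih, hσi, sum_range_succ, pow_add, mul_assoc]
  have hA : d ∣ ∑ j ∈ range n, c ^ j := by
    apply orderOf_dvd_of_pow_eq_one
    have h1 := hσqi n
    have h2 : σ ^ n = 1 := by rw [← hord]; exact pow_orderOf_eq_one σ
    rw [h2, AlgEquiv.one_apply] at h1
    exact (mul_eq_left₀ hq0).1 h1.symm
  have hS := exp_dvd (hodd.of_dvd_nat hdn) hdn hA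
  apply (algebraMap k k₁).injective
  have hcard' : Fintype.card Gal(k₁/k) = n := by rw [← Nat.card_eq_fintype_card, hcard]
  rw [Algebra.norm_eq_prod_automorphisms, ← prod_gen hcard' hord (fun g => g q)]
  simp only [hσqi]
  rw [prod_mul_distrib, prod_const, card_range, prod_pow_eq_pow_sum,
    orderOf_dvd_iff_pow_eq_one.1 hS, mul_one, hq]

end norm

end P025H461
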